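import Vale.Agent.Lib.P183.Unary

/-!
# Finite chains are representable

The chain with `n + 1` elements is the congruence lattice of the unary algebra on
`Fin (n + 1)` whose operations are all the maps `f` with `f x ≤ x`.
-/

namespace Vale.Agent.Lib.P183

open Classical

/-- The decreasing self-maps of `Fin (n + 1)`. -/
def decMaps (n : ℕ) : Set (Fin (n + 1) → Fin (n + 1)) := {f | ∀ x, f x ≤ x}

/-- The equivalence relation on `Fin (n + 1)` that collapses the initial segment up to `j`. -/
def initSetoid (n : ℕ) (j : Fin (n + 1)) : Setoid (Fin (n + 1)) where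
  r x y := x = y ∨ (x ≤ j ∧ y ≤ j)
  iseqv := by
    refine ⟨fun x => Or.inl rfl, ?_, ?_⟩
    · intro x y h
      rcases h with h | ⟨h1, h2⟩
      · exact Or.inl h.symm
      · exact Or.inr ⟨h2, h1⟩
    · intro x y z h1 h2
      rcases h1 with rfl | ⟨a, b⟩
      · exact h2
      · rcases h2 with rfl | ⟨c, d⟩
        · exact Or.inr ⟨a, b⟩
        · exact Or.inr ⟨a, d⟩

theorem initSetoid_isInv (n : ℕ) (j : Fin (n + 1)) : IsInv (decMaps n) (initSetoid n j) := by
  intro g hg x y h
  rcases h with rfl | ⟨h1, h2⟩
  · exact Or.inl rfl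
  · exact Or.inr ⟨(hg x).trans h1, (hg y).trans h2⟩

/-- The map from the chain to the invariant equivalence relations. -/
def chainMap (n : ℕ) (j : Fin (n + 1)) : Inv (decMaps n) :=
  ⟨initSetoid n j, initSetoid_isInv n j⟩

theorem chainMap_le_iff (n : ℕ) (i j : Fin (n + 1)) :
    chainMap n i ≤ chainMap n j ↔ i ≤ j := by
  constructor
  · intro h
    have h0 : (initSetoid n i).r 0 i := Or.inr ⟨Fin.zero_le _, le_refl _⟩
    have h1 : (initSetoid n j).r 0 i := h h0
    rcases h1 with h1 | ⟨_, h2⟩
    · rw [← h1]
      exact Fin.zero_le _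
    · exact h2
  · intro h x y hxy
    rcases hxy with rfl | ⟨h1, h2⟩
    · exact Or.inl rfl
    · exact Or.inr ⟨h1.trans h, h2.trans h⟩

theorem chainMap_surjective (n : ℕ) : Function.Surjective (chainMap n) := by
  rintro ⟨θ, hθ⟩
  -- the set of upper ends of nontrivial related pairs
  set S : Finset (Fin (n + 1)) := Finset.univ.filter (fun y => ∃ x, x < y ∧ θ.r x y) with hS
  set j : Fin (n + 1) := S.sup id with hj
  have hle : ∀ x y, x < y → θ.r x y → y ≤ j := by
    intro x y hxy hr
    have : y ∈ S := by
      rw [hS, Finset.mem_filter]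
      exact ⟨Finset.mem_univ _, x, hxy, hr⟩
    exact Finset.le_sup (f := id) this
  have hzero : ∀ z, z ≤ j → θ.r 0 z := by
    intro z hz
    by_cases hne : S.Nonempty
    · obtain ⟨y, hy, hyj⟩ := Finset.exists_mem_eq_sup S hne id
      rw [hS, Finset.mem_filter] at hy
      obtain ⟨-, x, hxy, hr⟩ := hy
      have hyj' : y = j := by rw [hj, hyj]; rfl
      rw [hyj'] at hxy hr
      have hg : (fun w : Fin (n + 1) => if w = j then z else 0) ∈ decMaps n := by
        intro w
        by_cases hw : w = j
        · simp only [if_pos hw]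
          rw [hw]
          exact hz
        · simp only [if_neg hw]
          exact Fin.zero_le _
      have := hθ _ hg x j hr
      simpa [ne_of_lt hxy] using this
    · rw [Finset.not_nonempty_iff_eq_empty] at hne
      have hj0 : j = 0 := by rw [hj, hne]; rfl
      have hz0 : z = 0 := by
        rw [hj0] at hz
        exact le_antisymm hz (Fin.zero_le _)
      rw [hz0]
  refine ⟨j, ?_⟩
  apply Subtype.ext
  apply Setoid.ext
  intro x y
  constructor
  · intro h
    rcases h with rfl | ⟨h1, h2⟩
    · exact θ.refl' _
    · exact θ.trans' (θ.symm' (hzero x h1)) (hzero y h2)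
  · intro h
    rcases lt_trichotomy x y with hlt | heq | hgt
    · have := hle x y hlt h
      exact Or.inr ⟨hlt.le.trans this, this⟩
    · exact Or.inl heq
    · have := hle y x hgt (θ.symm' h)
      exact Or.inr ⟨this, hgt.le.trans this⟩

/-- The chain with `n + 1` elements is representable. -/
theorem representable_fin (n : ℕ) : Representable (Fin (n + 1)) := by
  refine (representable_iff_unary _).mpr ⟨Fin (n + 1), inferInstance, inferInstance,
    decMaps n, ⟨?_⟩⟩
  have hinj : Function.Injective (chainMap n) := by
    intro i j h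
    exact le_antisymm ((chainMap_le_iff n i j).mp h.le) ((chainMap_le_iff n j i).mp h.ge)
  exact
    { toEquiv := Equiv.ofBijective (chainMap n) ⟨hinj, chainMap_surjective n⟩
      map_rel_iff' := fun {i j} => chainMap_le_iff n i j }

/-- Every nonempty finite linearly ordered set is representable. -/
theorem representable_of_linearOrder (C : Type*) [LinearOrder C] [Finite C] [Nonempty C] :
    Representable C := by
  have := Fintype.ofFinite C
  have hpos : 0 < Fintype.card C := Fintype.card_pos
  obtain ⟨n, hn⟩ : ∃ n, Fintype.card C = n + 1 := ⟨Fintype.card C - 1, by omega⟩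
  obtain ⟨A, ⟨e⟩⟩ := representable_fin n
  have e0 : C ≃o Fin (n + 1) := (Fintype.orderIsoFinOfCardEq C hn).symm
  exact ⟨A, ⟨e0.trans e⟩⟩

end Vale.Agent.Lib.P183
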