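import Mathlib

/-!
# Definitions for problem P183 (the finite lattice representation problem)
-/

namespace Vale.Agent.Lib.P183

/-- A finite algebra: a nonempty finite carrier together with a finite list of total
operations of finite arity (an operation of arity `n` is a function from `n`-tuples of
elements of the carrier to the carrier; arity `0` and the empty list are allowed). -/
structure FinAlgebra where
  /-- the underlying set -/
  carrier : Type
  /-- the carrier is finite -/
  finite : Finite carrier
  /-- the carrier is nonempty -/
  nonempty : Nonempty carrier
  /-- the list of basic operations, each with its arity -/
  ops : List (Σ n : ℕ, (Fin n → carrier) → carrier)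

/-- A congruence of a finite algebra: an equivalence relation on the carrier which is
compatible with every basic operation. -/
def FinAlgebra.IsCongruence (A : FinAlgebra) (θ : Setoid A.carrier) : Prop :=
  ∀ o ∈ A.ops, ∀ a b : Fin o.1 → A.carrier, (∀ k, θ.r (a k) (b k)) → θ.r (o.2 a) (o.2 b)

/-- A partially ordered set `L` (in particular a lattice) is representable if it is
order-isomorphic to the set of all congruences of some finite algebra, ordered by
inclusion. -/
def Representable (L : Type*) [PartialOrder L] : Prop :=
  ∃ A : FinAlgebra, Nonempty (L ≃o {θ : Setoid A.carrier // A.IsCongruence θ})

end Vale.Agent.Lib.P183
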