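import Vale.Agent.Lib.P183.Unary

/-!
# Intervals in subgroup lattices of finite groups are representable

For a finite group `G` and a subgroup `H`, the equivalence relations on the coset space `G ⧸ H`
invariant under all left translations correspond to the subgroups of `G` containing `H`.
-/

namespace Vale.Agent.Lib.P183

open Classical

section Coset

variable {G : Type} [Group G] (H : Subgroup G)

/-- The left translations of the coset space `G ⧸ H`. -/
def cosetOps : Set (G ⧸ H → G ⧸ H) := Set.range fun (g : G) (x : G ⧸ H) => g • x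

/-- The relation on `G ⧸ H` induced by a subgroup `K`. -/
def cosetR (K : Subgroup G) (x y : G ⧸ H) : Prop :=
  ∃ a b : G, (a : G ⧸ H) = x ∧ (b : G ⧸ H) = y ∧ a⁻¹ * b ∈ K

variable {H}

theorem cosetR_mk {K : Subgroup G} (hK : H ≤ K) (a b : G) :
    cosetR H K (a : G ⧸ H) (b : G ⧸ H) ↔ a⁻¹ * b ∈ K := by
  constructor
  · rintro ⟨a', b', ha, hb, h⟩
    have h1 : a'⁻¹ * a ∈ K := hK (QuotientGroup.eq.mp ha)
    have h2 : b'⁻¹ * b ∈ K := hK (QuotientGroup.eq.mp hb)
    have h3 : a⁻¹ * b = (a'⁻¹ * a)⁻¹ * (a'⁻¹ * b') * (b'⁻¹ * b) := by group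
    rw [h3]
    exact K.mul_mem (K.mul_mem (K.inv_mem h1) h) h2
  · intro h
    exact ⟨a, b, rfl, rfl, h⟩

/-- The equivalence relation on `G ⧸ H` induced by a subgroup `K` containing `H`. -/
def cosetSetoid (K : Subgroup G) (hK : H ≤ K) : Setoid (G ⧸ H) where
  r := cosetR H K
  iseqv := by
    refine ⟨fun x => ?_, fun {x y} h => ?_, fun {x y z} h h' => ?_⟩
    · induction x using QuotientGroup.induction_on with
      | H a =>
        rw [cosetR_mk hK]
        simp
    · induction x using QuotientGroup.induction_on with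
      | H a =>
        induction y using QuotientGroup.induction_on with
        | H b =>
          rw [cosetR_mk hK] at h ⊢
          have : b⁻¹ * a = (a⁻¹ * b)⁻¹ := by group
          rw [this]
          exact K.inv_mem h
    · induction x using QuotientGroup.induction_on with
      | H a =>
        induction y using QuotientGroup.induction_on with
        | H b =>
          induction z using QuotientGroup.induction_on with
          | H c =>
            rw [cosetR_mk hK] at h h' ⊢
            have : a⁻¹ * c = (a⁻¹ * b) * (b⁻¹ * c) := by group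
            rw [this]
            exact K.mul_mem h h'

theorem cosetSetoid_mk {K : Subgroup G} (hK : H ≤ K) (a b : G) :
    (cosetSetoid K hK).r (a : G ⧸ H) (b : G ⧸ H) ↔ a⁻¹ * b ∈ K :=
  cosetR_mk hK a b

theorem cosetSetoid_isInv {K : Subgroup G} (hK : H ≤ K) :
    IsInv (cosetOps H) (cosetSetoid K hK) := by
  rintro _ ⟨g, rfl⟩ x y h
  induction x using QuotientGroup.induction_on with
  | H a =>
    induction y using QuotientGroup.induction_on with
    | H b =>
      rw [cosetSetoid_mk] at h
      change (cosetSetoid K hK).r (g • (a : G ⧸ H)) (g • (b : G ⧸ H))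
      rw [MulAction.Quotient.smul_coe, MulAction.Quotient.smul_coe, cosetSetoid_mk]
      have : (g • a)⁻¹ * (g • b) = a⁻¹ * b := by
        simp only [smul_eq_mul]
        group
      rw [this]
      exact h

theorem isInv_smul {θ : Setoid (G ⧸ H)} (hθ : IsInv (cosetOps H) θ) (g : G) {a b : G}
    (h : θ.r (a : G ⧸ H) (b : G ⧸ H)) : θ.r ((g * a : G) : G ⧸ H) ((g * b : G) : G ⧸ H) := by
  have := hθ _ ⟨g, rfl⟩ _ _ h
  simpa only [MulAction.Quotient.smul_coe, smul_eq_mul] using this

/-- The subgroup of all elements whose coset is related to the coset of the identity. -/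
def relSubgroup (θ : Setoid (G ⧸ H)) (hθ : IsInv (cosetOps H) θ) : Subgroup G where
  carrier := {g | θ.r ((1 : G) : G ⧸ H) (g : G ⧸ H)}
  one_mem' := θ.refl' _
  mul_mem' := by
    intro a b ha hb
    have h1 := isInv_smul hθ a hb
    rw [mul_one] at h1
    exact θ.trans' ha h1
  inv_mem' := by
    intro a ha
    have h1 := isInv_smul hθ a⁻¹ ha
    rw [mul_one, inv_mul_cancel] at h1
    exact θ.symm' h1

theorem mem_relSubgroup {θ : Setoid (G ⧸ H)} (hθ : IsInv (cosetOps H) θ) (g : G) :
    g ∈ relSubgroup θ hθ ↔ θ.r ((1 : G) : G ⧸ H) (g : G ⧸ H) := Iff.rfl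

theorem le_relSubgroup {θ : Setoid (G ⧸ H)} (hθ : IsInv (cosetOps H) θ) :
    H ≤ relSubgroup θ hθ := by
  intro h hh
  rw [mem_relSubgroup]
  have : ((1 : G) : G ⧸ H) = (h : G ⧸ H) := by
    rw [QuotientGroup.eq]
    simpa using hh
  rw [this]

theorem rel_iff_mem {θ : Setoid (G ⧸ H)} (hθ : IsInv (cosetOps H) θ) (a b : G) :
    θ.r (a : G ⧸ H) (b : G ⧸ H) ↔ a⁻¹ * b ∈ relSubgroup θ hθ := by
  rw [mem_relSubgroup]
  constructor
  · intro h
    have := isInv_smul hθ a⁻¹ h
    rwa [inv_mul_cancel] at this
  · intro h
    have := isInv_smul hθ a h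
    rwa [mul_one, mul_inv_cancel_left] at this

variable (H)

/-- The subgroups containing `H` correspond to the invariant equivalence relations of the
coset space `G ⧸ H`. -/
noncomputable def intervalIso : Set.Ici H ≃o Inv (cosetOps H) where
  toFun K := ⟨cosetSetoid K.1 (Set.mem_Ici.mp K.2), cosetSetoid_isInv (Set.mem_Ici.mp K.2)⟩
  invFun θ := ⟨relSubgroup θ.1 θ.2, Set.mem_Ici.mpr (le_relSubgroup θ.2)⟩
  left_inv := by
    rintro ⟨K, hK⟩
    have hK0 : H ≤ K := hK
    apply Subtype.ext
    ext g
    change g ∈ relSubgroup (cosetSetoid K hK0) (cosetSetoid_isInv hK0) ↔ g ∈ K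
    rw [mem_relSubgroup, cosetSetoid_mk hK0]
    simp
  right_inv := by
    rintro ⟨θ, hθ⟩
    apply Subtype.ext
    apply Setoid.ext
    intro x y
    induction x using QuotientGroup.induction_on with
    | H a =>
      induction y using QuotientGroup.induction_on with
      | H b =>
        change (cosetSetoid (relSubgroup θ hθ) (le_relSubgroup hθ)).r _ _ ↔ θ.r _ _
        rw [cosetSetoid_mk (le_relSubgroup hθ), rel_iff_mem hθ]
  map_rel_iff' := by
    rintro ⟨K, hK⟩ ⟨K', hK'⟩
    have hK0 : H ≤ K := hK
    have hK0' : H ≤ K' := hK'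
    change cosetSetoid K hK0 ≤ cosetSetoid K' hK0' ↔ K ≤ K'
    constructor
    · intro h g hg
      have h1 : (cosetSetoid K hK0).r ((1 : G) : G ⧸ H) (g : G ⧸ H) := by
        rw [cosetSetoid_mk hK0]
        simpa using hg
      have h2 : (cosetSetoid K' hK0').r ((1 : G) : G ⧸ H) (g : G ⧸ H) := h h1
      rw [cosetSetoid_mk hK0'] at h2
      simpa using h2
    · intro h x y hxy
      induction x using QuotientGroup.induction_on with
      | H a =>
        induction y using QuotientGroup.induction_on with
        | H b =>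
          change (cosetSetoid K hK0).r _ _ at hxy
          rw [cosetSetoid_mk hK0] at hxy
          rw [cosetSetoid_mk hK0']
          exact h hxy

/-- Every interval `[H, G]` in the subgroup lattice of a finite group `G` (with carrier in the
lowest universe) is representable. -/
theorem representable_Ici_zero [Finite G] : Representable (Set.Ici H) :=
  (representable_iff_unary _).mpr
    ⟨G ⧸ H, inferInstance, ⟨((1 : G) : G ⧸ H)⟩, cosetOps H, ⟨intervalIso H⟩⟩

end Coset

end Vale.Agent.Lib.P183
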