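import Vale.Agent.Lib.P183.Frame

/-!
# The frame of a plane over a field

For a field `K`, the unary algebra on `K × K` whose basic operations are the translations and
the scalar multiplications has as invariant equivalence relations the least one, the greatest
one, and one for each line through the origin (the cosets of the line).  The lines are indexed
by `Option K`: `none` is the line `x = 0` and `some μ` is the line `y = μ x`.
-/

namespace Vale.Agent.Lib.P183

open Classical

variable (K : Type) [Field K]

/-- The linear functional whose kernel is the line with index `t`. -/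
def planeFun : Option K → K × K → K
  | none => fun v => v.1
  | some μ => fun v => v.2 - μ * v.1

/-- Translations and scalar multiplications of the plane. -/
def planeOps : Set (K × K → K × K) :=
  {g | (∃ c : K × K, g = fun v => (v.1 + c.1, v.2 + c.2)) ∨
    (∃ a : K, g = fun v => (a * v.1, a * v.2))}

/-- The equivalence relation whose classes are the cosets of the line with index `t`. -/
def planeW (t : Option K) : Setoid (K × K) := Setoid.ker (planeFun K t)

/-- A nonzero point on the line with index `t`. -/
def planeQ : Option K → K × K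
  | none => (0, 1)
  | some μ => (1, μ)

/-- The multiplications by nonzero scalars. -/
def planeG : Set (K × K → K × K) := {g | ∃ a : K, a ≠ 0 ∧ g = fun v => (a * v.1, a * v.2)}

variable {K}

theorem planeFun_add (t : Option K) (v c : K × K) :
    planeFun K t (v.1 + c.1, v.2 + c.2) = planeFun K t v + planeFun K t c := by
  cases t with
  | none => rfl
  | some μ => simp only [planeFun]; ring

theorem planeFun_smul (t : Option K) (a : K) (v : K × K) :
    planeFun K t (a * v.1, a * v.2) = a * planeFun K t v := by
  cases t with
  | none => rfl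
  | some μ => simp only [planeFun]; ring

theorem planeFun_zero (t : Option K) : planeFun K t (0, 0) = 0 := by
  cases t with
  | none => rfl
  | some μ => simp [planeFun]

theorem planeW_r (t : Option K) (x y : K × K) :
    (planeW K t).r x y ↔ planeFun K t x = planeFun K t y := Iff.rfl

theorem plane_hinv (t : Option K) : IsInv (planeOps K) (planeW K t) := by
  rintro g (⟨c, rfl⟩ | ⟨a, rfl⟩) x y h
  · rw [planeW_r] at h ⊢
    rw [planeFun_add, planeFun_add, h]
  · rw [planeW_r] at h ⊢
    rw [planeFun_smul, planeFun_smul, h]

/-- Classification of the invariant equivalence relations of the plane. -/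
theorem plane_hcon (θ : Setoid (K × K)) (hθ : IsInv (planeOps K) θ) :
    θ = ⊥ ∨ θ = ⊤ ∨ ∃ t, θ = planeW K t := by
  have htr : ∀ (c x y : K × K), θ.r x y →
      θ.r (x.1 + c.1, x.2 + c.2) (y.1 + c.1, y.2 + c.2) :=
    fun c x y h => hθ _ (Or.inl ⟨c, rfl⟩) x y h
  have hsc : ∀ (a : K) (x y : K × K), θ.r x y → θ.r (a * x.1, a * x.2) (a * y.1, a * y.2) :=
    fun a x y h => hθ _ (Or.inr ⟨a, rfl⟩) x y h
  have hH : ∀ x y : K × K, θ.r x y ↔ θ.r (x.1 - y.1, x.2 - y.2) (0, 0) := by
    intro x y
    constructor
    · intro h
      have := htr (-y.1, -y.2) x y h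
      simpa [sub_eq_add_neg] using this
    · intro h
      have := htr y _ _ h
      simpa using this
  have hHs : ∀ (a : K) (v : K × K), θ.r v (0, 0) → θ.r (a * v.1, a * v.2) (0, 0) := by
    intro a v h
    have := hsc a v (0, 0) h
    simpa using this
  have hHa : ∀ (v v' : K × K), θ.r v (0, 0) → θ.r v' (0, 0) →
      θ.r (v.1 + v'.1, v.2 + v'.2) (0, 0) := by
    intro v v' h h'
    have := htr v' v (0, 0) h
    simp only [zero_add] at this
    exact θ.trans' this h'
  by_cases hA : ∃ v : K × K, θ.r v (0, 0) ∧ v.1 ≠ 0
  · obtain ⟨v, hv, hv1⟩ := hA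
    obtain ⟨μ, h1μ⟩ : ∃ μ : K, θ.r (1, μ) (0, 0) := by
      refine ⟨(v.1)⁻¹ * v.2, ?_⟩
      have := hHs (v.1)⁻¹ v hv
      rwa [inv_mul_cancel₀ hv1] at this
    by_cases hA1 : ∃ v' : K × K, θ.r v' (0, 0) ∧ v'.2 - μ * v'.1 ≠ 0
    · obtain ⟨v', hv', hφ⟩ := hA1
      right
      left
      have h01 : θ.r ((0 : K), (1 : K)) (0, 0) := by
        have s1 := hHs (-v'.1) (1, μ) h1μ
        have s2 := hHa v' _ hv' s1
        have s3 := hHs (v'.2 - μ * v'.1)⁻¹ _ s2
        have e1 : (v'.2 - μ * v'.1)⁻¹ * (v'.1 + -v'.1 * 1) = 0 := by ring
        have e2 : (v'.2 - μ * v'.1)⁻¹ * (v'.2 + -v'.1 * μ) = 1 := by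
          have : v'.2 + -v'.1 * μ = v'.2 - μ * v'.1 := by ring
          rw [this]
          exact inv_mul_cancel₀ hφ
        simp only at s3
        rwa [e1, e2] at s3
      rw [eq_top_iff]
      intro x y _
      rw [hH]
      have s1 := hHs (x.1 - y.1) (1, μ) h1μ
      have s2 := hHs (x.2 - y.2 - μ * (x.1 - y.1)) (0, 1) h01
      have s3 := hHa _ _ s1 s2
      have e1 : (x.1 - y.1) * 1 + (x.2 - y.2 - μ * (x.1 - y.1)) * 0 = x.1 - y.1 := by ring
      have e2 : (x.1 - y.1) * μ + (x.2 - y.2 - μ * (x.1 - y.1)) * 1 = x.2 - y.2 := by ring
      simp only at s3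
      rwa [e1, e2] at s3
    · right
      right
      refine ⟨some μ, ?_⟩
      push_neg at hA1
      apply Setoid.ext
      intro x y
      rw [hH x y, planeW_r]
      constructor
      · intro h
        have := hA1 _ h
        simp only [planeFun] at this ⊢
        linear_combination this
      · intro h
        simp only [planeFun] at h
        have s1 := hHs (x.1 - y.1) (1, μ) h1μ
        have e1 : (x.1 - y.1) * 1 = x.1 - y.1 := mul_one _
        have e2 : (x.1 - y.1) * μ = x.2 - y.2 := by linear_combination (-1 : K) * h
        simp only at s1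
        rwa [e1, e2] at s1
  · push_neg at hA
    by_cases hB : ∃ v : K × K, θ.r v (0, 0) ∧ v.2 ≠ 0
    · obtain ⟨v, hv, hv2⟩ := hB
      right
      right
      refine ⟨none, ?_⟩
      have hv1 : v.1 = 0 := hA v hv
      have h01 : θ.r ((0 : K), (1 : K)) (0, 0) := by
        have := hHs (v.2)⁻¹ v hv
        rwa [hv1, mul_zero, inv_mul_cancel₀ hv2] at this
      apply Setoid.ext
      intro x y
      rw [hH x y, planeW_r]
      constructor
      · intro h
        have := hA _ h
        simp only [planeFun] at this ⊢
        exact sub_eq_zero.mp this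
      · intro h
        simp only [planeFun] at h
        have s1 := hHs (x.2 - y.2) (0, 1) h01
        simp only [mul_zero, mul_one] at s1
        rwa [h, sub_self]
    · push_neg at hB
      left
      rw [eq_bot_iff]
      intro x y h
      rw [Setoid.bot_def]
      rw [hH] at h
      have h1 := hA _ h
      have h2 := hB _ h
      simp only at h1 h2
      exact Prod.ext (sub_eq_zero.mp h1) (sub_eq_zero.mp h2)

variable (K)

/-- The frame of the plane over the field `K`. -/
def planeFrame : Frame (K × K) (Option K) where
  ops := planeOps K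
  w := planeW K
  p := fun _ => (0, 0)
  q := planeQ K
  G := fun _ => planeG K
  hpq := by
    intro t
    cases t with
    | none => simp [planeQ]
    | some μ => simp [planeQ]
  hw := by
    intro t
    rw [planeW_r, planeFun_zero]
    cases t with
    | none => simp [planeQ, planeFun]
    | some μ => simp [planeQ, planeFun]
  hcon := plane_hcon
  hinv := plane_hinv
  hne := by
    intro t t' h
    rw [planeW_r, planeFun_zero] at h
    cases t with
    | none =>
      cases t' with
      | none => rfl
      | some μ' => simp [planeQ, planeFun] at h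
    | some μ =>
      cases t' with
      | none => simp [planeQ, planeFun] at h
      | some μ' =>
        simp only [planeQ, planeFun, mul_one] at h
        rw [sub_eq_zero.mp h.symm]
  hGp := by
    rintro t g ⟨a, -, rfl⟩
    simp
  hGinv := by
    rintro t g ⟨a, -, rfl⟩ t' x y h
    rw [planeW_r] at h ⊢
    rw [planeFun_smul, planeFun_smul, h]
  htrans := by
    intro t b b' hb hb'
    rw [planeW_r, planeFun_zero] at hb hb'
    have hb0 : planeFun K t b ≠ 0 := fun e => hb e.symm
    have hb0' : planeFun K t b' ≠ 0 := fun e => hb' e.symm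
    refine ⟨fun v => (planeFun K t b' / planeFun K t b * v.1,
      planeFun K t b' / planeFun K t b * v.2), Or.inl ⟨_, div_ne_zero hb0' hb0, rfl⟩, ?_⟩
    rw [planeW_r, planeFun_smul, div_mul_cancel₀ _ hb0]
  hproper := by
    intro t
    cases t with
    | none =>
      refine ⟨(1, 0), ?_⟩
      rw [planeW_r, planeFun_zero]
      simp [planeFun]
    | some μ =>
      refine ⟨(0, 1), ?_⟩
      rw [planeW_r, planeFun_zero]
      simp [planeFun]

end Vale.Agent.Lib.P183
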