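import Vale.Agent.Lib.P183.FrameIso
import Vale.Agent.Lib.P183.PlaneFrame

/-!
# Representable lattices are closed under parallel sums of `q + 1` summands, `q` a prime power

The gadget construction over a frame shows that the parallel sum of a family of representable
partially ordered sets indexed by the wings of a frame is representable.  The plane over the
field with `q` elements is a frame with `q + 1` wings.
-/

namespace Vale.Agent.Lib.P183

open Classical

/-- Componentwise order isomorphisms give an order isomorphism of disjoint sums. -/
def sigmaOrderIso {ι : Type*} {α β : ι → Type*} [∀ i, LE (α i)] [∀ i, LE (β i)]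
    (e : ∀ i, α i ≃o β i) : (Σ i, α i) ≃o (Σ i, β i) where
  toEquiv := Equiv.sigmaCongrRight fun i => (e i).toEquiv
  map_rel_iff' := by
    rintro ⟨i, a⟩ ⟨j, b⟩
    by_cases h : i = j
    · subst h
      simp only [Equiv.sigmaCongrRight_apply, Sigma.mk_le_mk_iff]
      exact (e i).le_iff_le
    · constructor
      · intro hle
        obtain ⟨h', -⟩ := Sigma.le_def.mp hle
        exact absurd h' h
      · intro hle
        obtain ⟨h', -⟩ := Sigma.le_def.mp hle
        exact absurd h' h

/-- Reindexing a disjoint sum along a bijection of the index set is an order isomorphism. -/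
def sigmaReindexIso {ι κ : Type*} (ε : ι ≃ κ) (α : κ → Type*) [∀ i, LE (α i)] :
    (Σ t, α (ε t)) ≃o (Σ i, α i) where
  toEquiv := Equiv.sigmaCongrLeft ε
  map_rel_iff' := by
    rintro ⟨i, a⟩ ⟨j, b⟩
    by_cases h : i = j
    · subst h
      simp only [Equiv.sigmaCongrLeft_apply, Sigma.mk_le_mk_iff]
    · constructor
      · intro hle
        obtain ⟨h', -⟩ := Sigma.le_def.mp hle
        exact absurd (ε.injective h') h
      · intro hle
        obtain ⟨h', -⟩ := Sigma.le_def.mp hle
        exact absurd h' h

/-- Representability is invariant under order isomorphism. -/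
theorem Representable.of_orderIso {L L' : Type*} [PartialOrder L] [PartialOrder L']
    (h : Representable L) (e : L ≃o L') : Representable L' := by
  obtain ⟨A, ⟨e0⟩⟩ := h
  exact ⟨A, ⟨e.symm.trans e0⟩⟩

/-- The parallel sum of a family of representable partially ordered sets indexed by the wings
of a finite frame is representable. -/
theorem representable_frame {B T : Type} [Finite B] [Finite T] [Nonempty T] [Nonempty B]
    (fr : Frame B T) (L : T → Type*) [∀ t, PartialOrder (L t)]
    (h : ∀ t, Representable (L t)) : Representable (WithBot (WithTop (Σ t, L t))) := by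
  have h' := fun t => (representable_iff_unary (L t)).mp (h t)
  choose A hfin hne F e using h'
  obtain ⟨e0⟩ := frame_orderIso fr F
  have e1 : ∀ t, L t ≃o Inv (F t) := fun t => Classical.choice (e t)
  have : ∀ t, Finite (A t) := hfin
  refine (representable_iff_unary _).mpr
    ⟨FPt fr A, inferInstance, inferInstance, frameOps fr F, ⟨?_⟩⟩
  exact (OrderIso.withBotCongr (OrderIso.withTopCongr (sigmaOrderIso e1))).trans e0

/-- The parallel sum of a family of representable partially ordered sets indexed by the lines
through the origin of the plane over a finite field is representable. -/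
theorem representable_field (K : Type) [Field K] [Finite K] (L : Option K → Type*)
    [∀ t, PartialOrder (L t)] (h : ∀ t, Representable (L t)) :
    Representable (WithBot (WithTop (Σ t, L t))) :=
  representable_frame (planeFrame K) L h

/-- The parallel sum of `q + 1` representable partially ordered sets is representable, for
every prime power `q`. -/
theorem representable_primePow (q : ℕ) (hq : IsPrimePow q) (L : Fin (q + 1) → Type*)
    [∀ i, PartialOrder (L i)] (h : ∀ i, Representable (L i)) :
    Representable (WithBot (WithTop (Σ i, L i))) := by
  obtain ⟨p, k, hp, hk, rfl⟩ := (isPrimePow_nat_iff q).mp hq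
  have : Fact p.Prime := ⟨hp⟩
  have hcard : Nat.card (GaloisField p k) = p ^ k := GaloisField.card p k hk.ne'
  have : Finite (GaloisField p k) := Nat.finite_of_card_ne_zero (by
    rw [hcard]
    exact (pow_pos hp.pos k).ne')
  have hcard' : Nat.card (Option (GaloisField p k)) = p ^ k + 1 := by
    rw [Finite.card_option, hcard]
  have ε : Option (GaloisField p k) ≃ Fin (p ^ k + 1) := Finite.equivFinOfCardEq hcard'
  have h1 := representable_field (GaloisField p k) (fun t => L (ε t)) (fun t => h (ε t))
  exact h1.of_orderIso
    (OrderIso.withBotCongr (OrderIso.withTopCongr (sigmaReindexIso ε L)))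

end Vale.Agent.Lib.P183
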