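import Vale.Agent.Lib.P183.TripodIso

/-!
# Representable lattices are closed under ternary parallel sums
-/

namespace Vale.Agent.Lib.P183

/-- Three types as a family indexed by `Fin 3`. -/
def I3 (A B C : Type) : Fin 3 → Type
  | 0 => A
  | 1 => B
  | 2 => C

/-- Three sets of unary maps as a family indexed by `Fin 3`. -/
def F3 {A B C : Type} (FA : Set (A → A)) (FB : Set (B → B)) (FC : Set (C → C)) :
    ∀ t, Set (I3 A B C t → I3 A B C t)
  | 0 => FA
  | 1 => FB
  | 2 => FC

/-- If three partially ordered sets are representable, then so is their parallel sum: the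
disjoint union of the three with a new least and a new greatest element. -/
theorem representable_parSum3 (L₁ L₂ L₃ : Type*) [PartialOrder L₁] [PartialOrder L₂]
    [PartialOrder L₃] (h₁ : Representable L₁) (h₂ : Representable L₂)
    (h₃ : Representable L₃) : Representable (WithBot (WithTop (L₁ ⊕ L₂ ⊕ L₃))) := by
  obtain ⟨A, hA, hA', FA, ⟨eA⟩⟩ := (representable_iff_unary L₁).mp h₁
  obtain ⟨B, hB, hB', FB, ⟨eB⟩⟩ := (representable_iff_unary L₂).mp h₂
  obtain ⟨C, hC, hC', FC, ⟨eC⟩⟩ := (representable_iff_unary L₃).mp h₃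
  obtain ⟨e⟩ := tripod_orderIso (F3 FA FB FC)
  have hfin : ∀ t, Finite (I3 A B C t) := by
    intro t
    match t with
    | 0 => exact hA
    | 1 => exact hB
    | 2 => exact hC
  refine (representable_iff_unary _).mpr
    ⟨Pt (I3 A B C), inferInstance, inferInstance, tripodOps (F3 FA FB FC), ⟨?_⟩⟩
  exact (OrderIso.withBotCongr
    (OrderIso.withTopCongr (OrderIso.sumCongr eA (OrderIso.sumCongr eB eC)))).trans e

end Vale.Agent.Lib.P183
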