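import Vale.Agent.Lib.P183.FieldParallelSum
import Vale.Agent.Lib.P183.ParallelSum
import Vale.Agent.Lib.P183.Chain

/-!
# Parallel sums of four representable partially ordered sets

The case `q = 3` of the theorem on parallel sums of `q + 1` summands, restated for four
partially ordered sets and the disjoint sum `A ⊕ B ⊕ C ⊕ D`.
-/

namespace Vale.Agent.Lib.P183

open Classical

/-- Four types as a family indexed by `Fin 4`. -/
def I4 (A B C D : Type) : Fin 4 → Type
  | 0 => A
  | 1 => B
  | 2 => C
  | 3 => D

variable {A B C D : Type} [PartialOrder A] [PartialOrder B] [PartialOrder C] [PartialOrder D]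

instance I4.instPartialOrder : ∀ i : Fin 4, PartialOrder (I4 A B C D i)
  | 0 => (inferInstance : PartialOrder A)
  | 1 => (inferInstance : PartialOrder B)
  | 2 => (inferInstance : PartialOrder C)
  | 3 => (inferInstance : PartialOrder D)

/-- The map from the disjoint sum indexed by `Fin 4` to the iterated binary disjoint sum. -/
def sigma4Map : (Σ i, I4 A B C D i) → A ⊕ B ⊕ C ⊕ D
  | ⟨0, a⟩ => .inl a
  | ⟨1, b⟩ => .inr (.inl b)
  | ⟨2, c⟩ => .inr (.inr (.inl c))
  | ⟨3, d⟩ => .inr (.inr (.inr d))

theorem sigma4Map_le_iff (x y : Σ i, I4 A B C D i) : sigma4Map x ≤ sigma4Map y ↔ x ≤ y := by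
  obtain ⟨i, a⟩ := x
  obtain ⟨j, b⟩ := y
  by_cases h : i = j
  · subst h
    rw [Sigma.mk_le_mk_iff]
    match i, a, b with
    | 0, a, b => exact Sum.inl_le_inl_iff
    | 1, a, b => exact Sum.inr_le_inr_iff.trans Sum.inl_le_inl_iff
    | 2, a, b => exact Sum.inr_le_inr_iff.trans (Sum.inr_le_inr_iff.trans Sum.inl_le_inl_iff)
    | 3, a, b => exact Sum.inr_le_inr_iff.trans (Sum.inr_le_inr_iff.trans Sum.inr_le_inr_iff)
  · have hr : ¬ ((⟨i, a⟩ : Σ i, I4 A B C D i) ≤ ⟨j, b⟩) := by
      intro hle
      obtain ⟨h', -⟩ := Sigma.le_def.mp hle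
      exact h h'
    refine iff_of_false ?_ hr
    match i, j, a, b, h with
    | 0, 0, a, b, h => exact absurd rfl h
    | 0, 1, a, b, _ => exact Sum.not_inl_le_inr
    | 0, 2, a, b, _ => exact Sum.not_inl_le_inr
    | 0, 3, a, b, _ => exact Sum.not_inl_le_inr
    | 1, 0, a, b, _ => exact Sum.not_inr_le_inl
    | 1, 1, a, b, h => exact absurd rfl h
    | 1, 2, a, b, _ => exact fun hle => Sum.not_inl_le_inr (Sum.inr_le_inr_iff.mp hle)
    | 1, 3, a, b, _ => exact fun hle => Sum.not_inl_le_inr (Sum.inr_le_inr_iff.mp hle)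
    | 2, 0, a, b, _ => exact Sum.not_inr_le_inl
    | 2, 1, a, b, _ => exact fun hle => Sum.not_inr_le_inl (Sum.inr_le_inr_iff.mp hle)
    | 2, 2, a, b, h => exact absurd rfl h
    | 2, 3, a, b, _ =>
      exact fun hle => Sum.not_inl_le_inr (Sum.inr_le_inr_iff.mp (Sum.inr_le_inr_iff.mp hle))
    | 3, 0, a, b, _ => exact Sum.not_inr_le_inl
    | 3, 1, a, b, _ => exact fun hle => Sum.not_inr_le_inl (Sum.inr_le_inr_iff.mp hle)
    | 3, 2, a, b, _ =>
      exact fun hle => Sum.not_inr_le_inl (Sum.inr_le_inr_iff.mp (Sum.inr_le_inr_iff.mp hle))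
    | 3, 3, a, b, h => exact absurd rfl h

omit [PartialOrder A] [PartialOrder B] [PartialOrder C] [PartialOrder D] in
theorem sigma4Map_surjective :
    Function.Surjective (sigma4Map (A := A) (B := B) (C := C) (D := D)) := by
  intro y
  rcases y with a | b | c | d
  · exact ⟨⟨0, a⟩, rfl⟩
  · exact ⟨⟨1, b⟩, rfl⟩
  · exact ⟨⟨2, c⟩, rfl⟩
  · exact ⟨⟨3, d⟩, rfl⟩

/-- The disjoint sum indexed by `Fin 4` is order isomorphic to the iterated binary one. -/
noncomputable def sigma4Iso : (Σ i, I4 A B C D i) ≃o A ⊕ B ⊕ C ⊕ D :=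
  RelIso.ofSurjective (OrderEmbedding.ofMapLEIff sigma4Map sigma4Map_le_iff) sigma4Map_surjective

variable (A B C D)

/-- If four partially ordered sets are representable, then so is their parallel sum. -/
theorem representable_parSum4 (hA : Representable A) (hB : Representable B)
    (hC : Representable C) (hD : Representable D) :
    Representable (WithBot (WithTop (A ⊕ B ⊕ C ⊕ D))) := by
  have h : ∀ i, Representable (I4 A B C D i) := by
    intro i
    match i with
    | 0 => exact hA
    | 1 => exact hB
    | 2 => exact hC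
    | 3 => exact hD
  have h3 := representable_primePow 3 Nat.prime_three.isPrimePow (I4 A B C D) h
  exact h3.of_orderIso (OrderIso.withBotCongr (OrderIso.withTopCongr sigma4Iso))

/-- The seven-element parallel sums of three or four chains are representable. -/
theorem representable_seven :
    Representable (WithBot (WithTop (Fin 2 ⊕ Fin 2 ⊕ Fin 1))) ∧
    Representable (WithBot (WithTop (Fin 3 ⊕ Fin 1 ⊕ Fin 1))) ∧
    Representable (WithBot (WithTop (Fin 2 ⊕ Fin 1 ⊕ Fin 1 ⊕ Fin 1))) :=
  ⟨representable_parSum3 _ _ _ (representable_of_linearOrder _) (representable_of_linearOrder _)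
      (representable_of_linearOrder _),
    representable_parSum3 _ _ _ (representable_of_linearOrder _) (representable_of_linearOrder _)
      (representable_of_linearOrder _),
    representable_parSum4 _ _ _ _ (representable_of_linearOrder _)
      (representable_of_linearOrder _) (representable_of_linearOrder _)
      (representable_of_linearOrder _)⟩

end Vale.Agent.Lib.P183
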