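import Vale.Agent.Lib.P183.Unary

/-!
# Frames and the gadget algebra over a frame

A frame is a finite unary algebra on a set `B` whose invariant equivalence relations are the
least one, the greatest one and a family `w t` of pairwise incomparable ones, together with
some extra data: for each `t` two distinct points `p t`, `q t` which are `w t`-related, and a
set `G t` of maps fixing `p t`, preserving all the `w t'` and acting transitively on the
`w t`-classes other than the class of `p t`.

Given unary algebras `(I t, F t)` we build a unary algebra on the set `FPt fr I` consisting of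
the points of `B` and, for every `t`, every `i : I t` and every `b ≠ p t`, two further points.
-/

namespace Vale.Agent.Lib.P183

open Classical

/-- A frame on a set `B` with wings indexed by `T`. -/
structure Frame (B T : Type) where
  /-- the basic operations of the frame algebra -/
  ops : Set (B → B)
  /-- the wings: the invariant equivalence relations other than the least and greatest -/
  w : T → Setoid B
  /-- the gluing point of the wing -/
  p : T → B
  /-- a second point in the class of the gluing point -/
  q : T → B
  /-- the twisting maps of the wing -/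
  G : T → Set (B → B)
  hpq : ∀ t, q t ≠ p t
  hw : ∀ t, (w t).r (p t) (q t)
  hcon : ∀ θ : Setoid B, IsInv ops θ → θ = ⊥ ∨ θ = ⊤ ∨ ∃ t, θ = w t
  hinv : ∀ t, IsInv ops (w t)
  hne : ∀ t t', (w t').r (p t) (q t) → t' = t
  hGp : ∀ t, ∀ g ∈ G t, g (p t) = p t
  hGinv : ∀ t, ∀ g ∈ G t, ∀ t' x y, (w t').r x y → (w t').r (g x) (g y)
  htrans : ∀ t b b', ¬ (w t).r (p t) b → ¬ (w t).r (p t) b' →
    ∃ g, (g ∈ G t ∨ g = id) ∧ (w t).r (g b) b'
  hproper : ∀ t, ∃ r, ¬ (w t).r (p t) r

variable {B T : Type}

/-- The class of a point of the frame with respect to the wing `u`. -/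
def Frame.cl (fr : Frame B T) (u : T) (b : B) : Quotient (fr.w u) := Quotient.mk (fr.w u) b

theorem Frame.cl_eq (fr : Frame B T) (u : T) (a b : B) :
    fr.cl u a = fr.cl u b ↔ (fr.w u).r a b := Quotient.eq

theorem Frame.cl_pq (fr : Frame B T) (t : T) : fr.cl t (fr.p t) = fr.cl t (fr.q t) :=
  (fr.cl_eq t _ _).mpr (fr.hw t)

theorem Frame.cl_ne (fr : Frame B T) {t t' : T} (h : fr.cl t' (fr.p t) = fr.cl t' (fr.q t)) :
    t' = t :=
  fr.hne t t' ((fr.cl_eq t' _ _).mp h)

/-- A twisting map (or the identity) fixes the gluing point. -/
theorem Frame.twist_p (fr : Frame B T) {t : T} {g : B → B} (hg : g ∈ fr.G t ∨ g = id) :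
    g (fr.p t) = fr.p t := by
  rcases hg with hg | rfl
  · exact fr.hGp t g hg
  · rfl

/-- A twisting map (or the identity) preserves the classes of every wing. -/
theorem Frame.twist_cl (fr : Frame B T) {t : T} {g : B → B} (hg : g ∈ fr.G t ∨ g = id)
    (u : T) {a b : B} (h : fr.cl u a = fr.cl u b) : fr.cl u (g a) = fr.cl u (g b) := by
  rcases hg with hg | rfl
  · exact (fr.cl_eq u _ _).mpr (fr.hGinv t g hg u a b ((fr.cl_eq u _ _).mp h))
  · exact h

/-- The points of the gadget algebra over a frame: the points of the frame and, for each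
wing `t`, each index `i : I t` and each `b ≠ p t`, two points (`k = false`: first copy,
`k = true`: second copy). -/
inductive FPt (fr : Frame B T) (I : T → Type) : Type
  | base (b : B) : FPt fr I
  | arm (k : Bool) (t : T) (i : I t) (b : B) (hb : b ≠ fr.p t) : FPt fr I

variable {fr : Frame B T} {I : T → Type}

/-- The retraction onto the frame determined by a family of subsets `S t ⊆ I t`. -/
noncomputable def fS (S : ∀ t, I t → Prop) : FPt fr I → B
  | .base b => b
  | .arm k t i b _ => if S t i then fr.p t else (if k = true then fr.q t else b)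

/-- The second retraction onto the frame. -/
noncomputable def fC : FPt fr I → B
  | .base b => b
  | .arm k t _ b _ => if k = true then b else fr.p t

/-- The first copy of the frame at `(t, i)`, glued to the frame at `p t`. -/
noncomputable def par1 (t : T) (i : I t) (b : B) : FPt fr I :=
  if h : b = fr.p t then .base (fr.p t) else .arm false t i b h

/-- The second copy of the frame at `(t, i)`, glued to the first copy at its point `q t`. -/
noncomputable def par2 (t : T) (i : I t) (b : B) : FPt fr I :=
  if h : b = fr.p t then .arm false t i (fr.q t) (fr.hpq t) else .arm true t i b h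

/-- The action of a family of unary maps on the indices. -/
def fLift (f : ∀ t, I t → I t) : FPt fr I → FPt fr I
  | .base b => .base b
  | .arm k t i b h => .arm k t (f t i) b h

/-- The action of a family of maps of the frame on the second copies. -/
noncomputable def fTwist (g : T → B → B) : FPt fr I → FPt fr I
  | .base b => .base b
  | .arm k t i b h => if k = true then par2 t i (g t b) else .arm k t i b h

/-- The basic operations of the gadget algebra. -/
inductive IsFOp (fr : Frame B T) (F : ∀ t, Set (I t → I t)) : (FPt fr I → FPt fr I) → Prop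
  | lift (f : ∀ t, I t → I t) (hf : ∀ t, f t ∈ F t ∨ f t = id) : IsFOp fr F (fLift f)
  | twist (g : T → B → B) (hg : ∀ t, g t ∈ fr.G t ∨ g t = id) : IsFOp fr F (fTwist g)
  | retS (S : ∀ t, I t → Prop) : IsFOp fr F (fun v => .base (fS S v))
  | retC : IsFOp fr F (fun v => .base (fC v))
  | baseOp (g : B → B) (hg : g ∈ fr.ops) :
      IsFOp fr F (fun v => .base (g (fS (fun _ _ => False) v)))
  | fold1 (t : T) (i : I t) : IsFOp fr F (fun v => par1 t i (fS (fun _ _ => False) v))
  | fold2 (t : T) (i : I t) : IsFOp fr F (fun v => par2 t i (fS (fun _ _ => False) v))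

/-- The set of basic operations of the gadget algebra. -/
def frameOps (fr : Frame B T) (F : ∀ t, Set (I t → I t)) : Set (FPt fr I → FPt fr I) :=
  {g | IsFOp fr F g}

/-! ### Finiteness -/

/-- An injective encoding of the points. -/
def FPt.enc : FPt fr I → B ⊕ (Bool × (Σ t, I t) × B)
  | .base b => .inl b
  | .arm k t i b _ => .inr (k, ⟨t, i⟩, b)

theorem FPt.enc_injective : Function.Injective (FPt.enc (fr := fr) (I := I)) := by
  intro v v' h
  cases v with
  | base b =>
    cases v' with
    | base b' => simp only [FPt.enc, Sum.inl.injEq] at h; rw [h]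
    | arm k' t' j b' hb' => simp [FPt.enc] at h
  | arm k t i b hb =>
    cases v' with
    | base b' => simp [FPt.enc] at h
    | arm k' t' j b' hb' =>
      simp only [FPt.enc, Sum.inr.injEq, Prod.mk.injEq] at h
      obtain ⟨h1, h2, h3⟩ := h
      cases h1
      cases h2
      cases h3
      rfl

instance [Finite B] [Finite T] [∀ t, Finite (I t)] : Finite (FPt fr I) :=
  Finite.of_injective FPt.enc FPt.enc_injective

instance [Nonempty B] : Nonempty (FPt fr I) := ⟨.base (Classical.arbitrary B)⟩

/-! ### Simp lemmas -/

@[simp] theorem fS_base (S : ∀ t, I t → Prop) (b : B) : fS S (.base b : FPt fr I) = b := rfl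

theorem fS_arm (S : ∀ t, I t → Prop) (k : Bool) (t : T) (i : I t) (b : B) (hb : b ≠ fr.p t) :
    fS S (.arm k t i b hb : FPt fr I)
      = if S t i then fr.p t else (if k = true then fr.q t else b) := rfl

@[simp] theorem fC_base (b : B) : fC (.base b : FPt fr I) = b := rfl

theorem fC_arm (k : Bool) (t : T) (i : I t) (b : B) (hb : b ≠ fr.p t) :
    fC (.arm k t i b hb : FPt fr I) = if k = true then b else fr.p t := rfl

theorem fS_par1 (S : ∀ t, I t → Prop) (t : T) (i : I t) (b : B) :
    fS S (par1 t i b : FPt fr I) = if S t i then fr.p t else b := by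
  unfold par1
  by_cases h : b = fr.p t
  · simp [h]
  · simp [h, fS_arm]

theorem fC_par1 (t : T) (i : I t) (b : B) : fC (par1 t i b : FPt fr I) = fr.p t := by
  unfold par1
  by_cases h : b = fr.p t
  · simp [h]
  · simp [h, fC_arm]

theorem fS_par2 (S : ∀ t, I t → Prop) (t : T) (i : I t) (b : B) :
    fS S (par2 t i b : FPt fr I) = if S t i then fr.p t else fr.q t := by
  unfold par2
  by_cases h : b = fr.p t
  · simp [h, fS_arm]
  · simp [h, fS_arm]

theorem fC_par2 (t : T) (i : I t) (b : B) : fC (par2 t i b : FPt fr I) = b := by
  unfold par2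
  by_cases h : b = fr.p t
  · simp [h, fC_arm]
  · simp [h, fC_arm]

theorem fS_fLift (S : ∀ t, I t → Prop) (f : ∀ t, I t → I t) (v : FPt fr I) :
    fS S (fLift f v) = fS (fun t i => S t (f t i)) v := by
  cases v <;> rfl

theorem fC_fLift (f : ∀ t, I t → I t) (v : FPt fr I) : fC (fLift f v) = fC v := by
  cases v <;> rfl

theorem fS_fTwist (S : ∀ t, I t → Prop) (g : T → B → B) (v : FPt fr I) :
    fS S (fTwist g v) = fS S v := by
  cases v with
  | base b => rfl
  | arm k t i b hb =>
    cases k with
    | false => rfl
    | true => simp [fTwist, fS_par2, fS_arm]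

theorem par1_p (t : T) (i : I t) : (par1 t i (fr.p t) : FPt fr I) = .base (fr.p t) := by
  simp [par1]

theorem par1_of_ne (t : T) (i : I t) {b : B} (hb : b ≠ fr.p t) :
    (par1 t i b : FPt fr I) = .arm false t i b hb := by
  simp [par1, hb]

theorem par2_p (t : T) (i : I t) : (par2 t i (fr.p t) : FPt fr I) = par1 t i (fr.q t) := by
  simp [par2, par1, fr.hpq t]

theorem par2_of_ne (t : T) (i : I t) {b : B} (hb : b ≠ fr.p t) :
    (par2 t i b : FPt fr I) = .arm true t i b hb := by
  simp [par2, hb]

end Vale.Agent.Lib.P183
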