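import Vale.Agent.Lib.P183.FrameProfile

/-!
# The invariant equivalence relations `fHat u ψ` of the gadget algebra

For a wing `u` and an equivalence relation `ψ` on `I u` we define an equivalence relation
`fHat u ψ` on the gadget algebra, and show that it is invariant under the basic operations
whenever `ψ` is invariant under `F u`.
-/

namespace Vale.Agent.Lib.P183

open Classical

variable {B T : Type} {fr : Frame B T} {I : T → Type}

theorem arm_true_inj {u : T} {i j : I u} {b b' : B} {hb : b ≠ fr.p u} {hb' : b' ≠ fr.p u}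
    (h : (FPt.arm true u i b hb : FPt fr I) = .arm true u j b' hb') : i = j ∧ b = b' := by
  simp only [FPt.arm.injEq, true_and, heq_eq_eq] at h
  exact h

/-- The relation underlying `fHat u ψ`: same `u`-profile, and two free points of second
copies of the wing `u` have `ψ`-related indices. -/
def FHatRel (u : T) (ψ : Setoid (I u)) (v v' : FPt fr I) : Prop :=
  FProf u v v' ∧ ∀ (i j : I u) (b b' : B) (hb : b ≠ fr.p u) (hb' : b' ≠ fr.p u),
    v = .arm true u i b hb → v' = .arm true u j b' hb' →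
      fr.cl u (fr.p u) ≠ fr.cl u b → ψ.r i j

/-- Two second-copy points of the wing `u` with the same `u`-profile have `w u`-related
labels. -/
theorem FProf.label {u : T} {i j : I u} {b b' : B} {hb : b ≠ fr.p u} {hb' : b' ≠ fr.p u}
    (h : FProf u (.arm true u i b hb : FPt fr I) (.arm true u j b' hb')) :
    fr.cl u b = fr.cl u b' := by
  have h2 := h.2
  rw [fC_arm, fC_arm] at h2
  simpa using h2

/-- The equivalence relation `fHat u ψ` on the gadget algebra. -/
def fHat (u : T) (ψ : Setoid (I u)) : Setoid (FPt fr I) where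
  r := FHatRel u ψ
  iseqv := by
    refine ⟨fun v => ⟨FProf.refl u v, ?_⟩, ?_, ?_⟩
    · intro i j b b' hb hb' e e' _
      rw [e] at e'
      rw [(arm_true_inj e').1]
    · intro v v' h
      refine ⟨h.1.symm, ?_⟩
      intro i j b b' hb hb' e e' hfree
      have hp := h.1
      rw [e, e'] at hp
      have hl := hp.label
      have hfree' : fr.cl u (fr.p u) ≠ fr.cl u b' := fun hh => hfree (hh.trans hl)
      exact ψ.symm' (h.2 j i b' b hb' hb e' e hfree')
    · intro v v' v'' h h'
      refine ⟨h.1.trans h'.1, ?_⟩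
      intro i j b b'' hb hb'' e e'' hfree
      have hp := h.1
      rw [e] at hp
      obtain ⟨j', b', hb', e', hl⟩ := hp.of_free hfree
      have hfree' : fr.cl u (fr.p u) ≠ fr.cl u b' := fun hh => hfree (hh.trans hl.symm)
      exact ψ.trans' (h.2 i j' b b' hb hb' e e' hfree) (h'.2 j' j b' b'' hb' hb'' e' e'' hfree')

theorem fHat_r (u : T) (ψ : Setoid (I u)) (v v' : FPt fr I) :
    (fHat u ψ).r v v' ↔ FHatRel u ψ v v' := Iff.rfl

/-! ### Shapes of images of the basic operations -/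

theorem fLift_eq_arm {f : ∀ t, I t → I t} {v : FPt fr I} {k : Bool} {u : T} {i : I u} {b : B}
    {hb : b ≠ fr.p u} (h : fLift f v = .arm k u i b hb) :
    ∃ i0 : I u, v = .arm k u i0 b hb ∧ f u i0 = i := by
  cases v with
  | base b0 => simp [fLift] at h
  | arm k0 t0 i0 b0 hb0 =>
    simp only [fLift, FPt.arm.injEq] at h
    obtain ⟨rfl, rfl, h3, rfl⟩ := h
    exact ⟨i0, rfl, eq_of_heq h3⟩

theorem par1_ne_arm_true {t : T} {i0 : I t} {c : B} {u : T} {i : I u} {b : B}
    {hb : b ≠ fr.p u} : (par1 t i0 c : FPt fr I) ≠ .arm true u i b hb := by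
  unfold par1
  by_cases h : c = fr.p t
  · simp [h]
  · simp [h]

theorem par2_eq_arm_true {t : T} {i0 : I t} {c : B} {u : T} {i : I u} {b : B}
    {hb : b ≠ fr.p u} (h : (par2 t i0 c : FPt fr I) = .arm true u i b hb) :
    (⟨t, i0⟩ : Σ t, I t) = ⟨u, i⟩ ∧ c = b := by
  unfold par2 at h
  by_cases hc : c = fr.p t
  · simp [hc] at h
  · simp only [hc, dif_neg, not_false_eq_true, FPt.arm.injEq, true_and] at h
    obtain ⟨rfl, h2, rfl⟩ := h
    exact ⟨by rw [eq_of_heq h2], rfl⟩

theorem fTwist_eq_arm_true {g : T → B → B} {v : FPt fr I} {u : T} {i : I u} {b : B}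
    {hb : b ≠ fr.p u} (h : fTwist g v = .arm true u i b hb) :
    ∃ (b0 : B) (hb0 : b0 ≠ fr.p u), v = .arm true u i b0 hb0 ∧ g u b0 = b := by
  cases v with
  | base b0 => simp [fTwist] at h
  | arm k0 t0 i0 b0 hb0 =>
    cases k0 with
    | false => simp [fTwist] at h
    | true =>
      rw [fTwist_arm_true] at h
      obtain ⟨h1, h2⟩ := par2_eq_arm_true h
      rw [Sigma.mk.inj_iff] at h1
      obtain ⟨rfl, h3⟩ := h1
      cases h3
      exact ⟨b0, hb0, rfl, h2⟩

/-- The relation `fHat u ψ` is invariant under the basic operations. -/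
theorem fHat_isInv (F : ∀ t, Set (I t → I t)) (u : T) (ψ : Setoid (I u))
    (hψ : IsInv (F u) ψ) : IsInv (frameOps fr F) (fHat u ψ) := by
  intro g hg v v' h
  refine ⟨h.1.map hg, ?_⟩
  intro i j b b' hb hb' e e' hfree
  cases hg with
  | lift f hf =>
    obtain ⟨i0, rfl, rfl⟩ := fLift_eq_arm e
    obtain ⟨j0, rfl, rfl⟩ := fLift_eq_arm e'
    have := h.2 i0 j0 b b' hb hb' rfl rfl hfree
    rcases hf u with hfu | hfu
    · exact hψ (f u) hfu _ _ this
    · rw [hfu]
      exact this
  | twist g hg =>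
    obtain ⟨b0, hb0, rfl, rfl⟩ := fTwist_eq_arm_true e
    obtain ⟨b0', hb0', rfl, rfl⟩ := fTwist_eq_arm_true e'
    have hfree0 : fr.cl u (fr.p u) ≠ fr.cl u b0 := by
      intro hh
      have := fr.twist_cl (hg u) u hh
      rw [fr.twist_p (hg u)] at this
      exact hfree this
    exact h.2 i j b0 b0' hb0 hb0' rfl rfl hfree0
  | retS S => simp at e
  | retC => simp at e
  | baseOp g hg => simp at e
  | fold1 t i0 => exact (par1_ne_arm_true e).elim
  | fold2 t i0 =>
    obtain ⟨h1, -⟩ := par2_eq_arm_true e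
    obtain ⟨h1', -⟩ := par2_eq_arm_true e'
    have h3 : (⟨u, i⟩ : Σ t, I t) = ⟨u, j⟩ := h1.symm.trans h1'
    rw [Sigma.mk.inj_iff] at h3
    rw [eq_of_heq h3.2]

/-! ### Basic properties of `fHat` -/

theorem fProf_free (u : T) (i j : I u) (r : B) (hr : r ≠ fr.p u) :
    FProf u (.arm true u i r hr : FPt fr I) (.arm true u j r hr) := by
  refine ⟨fun S => ?_, rfl⟩
  rw [fS_arm, fS_arm]
  have := fr.cl_pq u
  split_ifs <;> simp_all

theorem fHat_free_iff (u : T) (ψ : Setoid (I u)) (i j : I u) (r : B) (hr : r ≠ fr.p u)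
    (hfree : fr.cl u (fr.p u) ≠ fr.cl u r) :
    (fHat u ψ).r (.arm true u i r hr : FPt fr I) (.arm true u j r hr) ↔ ψ.r i j := by
  constructor
  · intro h
    exact h.2 i j r r hr hr rfl rfl hfree
  · intro h
    refine ⟨fProf_free u i j r hr, ?_⟩
    intro i' j' b b' hb hb' e e' _
    rw [← (arm_true_inj e).1, ← (arm_true_inj e').1]
    exact h

theorem fHat_base (u : T) (ψ : Setoid (I u)) (b b' : B) :
    (fHat u ψ).r (.base b : FPt fr I) (.base b') ↔ (fr.w u).r b b' := by
  constructor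
  · intro h
    have := h.1.1 (sNone I)
    simpa [fr.cl_eq] using this
  · intro h
    have hc : fr.cl u b = fr.cl u b' := (fr.cl_eq u _ _).mpr h
    refine ⟨⟨fun S => by simpa using hc, by simpa using hc⟩, ?_⟩
    intro i j c c' hc1 hc2 e
    cases e

theorem fHat_le_iff (u : T) (ψ ψ' : Setoid (I u)) :
    (fHat u ψ : Setoid (FPt fr I)) ≤ fHat u ψ' ↔ ψ ≤ ψ' := by
  obtain ⟨r, hr⟩ := fr.hproper u
  have hr' : r ≠ fr.p u := by
    intro e
    apply hr
    rw [e]
  have hfree : fr.cl u (fr.p u) ≠ fr.cl u r := fun hh => hr ((fr.cl_eq u _ _).mp hh)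
  constructor
  · intro h i j hij
    exact (fHat_free_iff u ψ' i j r hr' hfree).mp (h ((fHat_free_iff u ψ i j r hr' hfree).mpr hij))
  · intro h v v' hvv'
    exact ⟨hvv'.1, fun i j b b' hb hb' e e' hf => h (hvv'.2 i j b b' hb hb' e e' hf)⟩

theorem not_fHat_le_of_ne {u u' : T} (hne : u ≠ u') (ψ : Setoid (I u)) (ψ' : Setoid (I u')) :
    ¬ (fHat u ψ : Setoid (FPt fr I)) ≤ fHat u' ψ' := by
  intro h
  have h1 : (fHat u ψ).r (.base (fr.p u) : FPt fr I) (.base (fr.q u)) :=
    (fHat_base u ψ _ _).mpr (fr.hw u)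
  have h2 := (fHat_base u' ψ' _ _).mp (h h1)
  exact hne (fr.hne u u' h2).symm

theorem not_fHat_le_bot (u : T) (ψ : Setoid (I u)) :
    ¬ (fHat u ψ : Setoid (FPt fr I)) ≤ ⊥ := by
  intro h
  have h1 : (fHat u ψ).r (.base (fr.p u) : FPt fr I) (.base (fr.q u)) :=
    (fHat_base u ψ _ _).mpr (fr.hw u)
  have h2 := h h1
  rw [Setoid.bot_def] at h2
  simp only [FPt.base.injEq] at h2
  exact fr.hpq u h2.symm

theorem not_top_le_fHat (u : T) (ψ : Setoid (I u)) :
    ¬ (⊤ : Setoid (FPt fr I)) ≤ fHat u ψ := by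
  intro h
  obtain ⟨r, hr⟩ := fr.hproper u
  have h1 : (⊤ : Setoid (FPt fr I)).r (.base (fr.p u)) (.base r) := by
    rw [Setoid.top_def]
    trivial
  exact hr ((fHat_base u ψ _ _).mp (h h1))

theorem not_top_le_bot_frame [Nonempty T] : ¬ (⊤ : Setoid (FPt fr I)) ≤ ⊥ := by
  intro h
  obtain ⟨u⟩ := (inferInstance : Nonempty T)
  have h1 : (⊤ : Setoid (FPt fr I)).r (.base (fr.p u)) (.base (fr.q u)) := by
    rw [Setoid.top_def]
    trivial
  have h2 := h h1
  rw [Setoid.bot_def] at h2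
  simp only [FPt.base.injEq] at h2
  exact fr.hpq u h2.symm

end Vale.Agent.Lib.P183
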