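import Vale.Agent.Lib.P183.TripodCon

/-!
# The congruence lattice of the tripod algebra

Every invariant equivalence relation of the tripod algebra is the least one, the greatest
one or of the form `hat u ψ`; hence the lattice of invariant equivalence relations is the
parallel sum of the three lattices of invariant equivalence relations of `(I t, F t)`.
-/

namespace Vale.Agent.Lib.P183

open Classical

variable {I : Fin 3 → Type}

section Invariant

variable {F : ∀ t, Set (I t → I t)} {θ : Setoid (Pt I)}

theorem inv_baseS (hθ : IsInv (tripodOps F) θ) (S : ∀ t, I t → Prop) {v w : Pt I}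
    (h : θ.r v w) : θ.r (.base (rhoS S v)) (.base (rhoS S w)) :=
  hθ _ (IsOp.retS S) v w h

theorem inv_baseC (hθ : IsInv (tripodOps F) θ) {v w : Pt I}
    (h : θ.r v w) : θ.r (.base (rhoC v)) (.base (rhoC w)) :=
  hθ _ IsOp.retC v w h

theorem inv_tri1 (hθ : IsInv (tripodOps F) θ) (t : Fin 3) (i : I t) {α β : Fin 3}
    (h : θ.r (.base α) (.base β)) : θ.r (tri1 t i α) (tri1 t i β) :=
  hθ _ (IsOp.fold1 t i) _ _ h

theorem inv_tri2 (hθ : IsInv (tripodOps F) θ) (t : Fin 3) (i : I t) {α β : Fin 3}
    (h : θ.r (.base α) (.base β)) : θ.r (tri2 t i α) (tri2 t i β) :=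
  hθ _ (IsOp.fold2 t i) _ _ h

/-- An invariant equivalence relation identifying all base points is the greatest one. -/
theorem top_of_base (hθ : IsInv (tripodOps F) θ)
    (hall : ∀ α β : Fin 3, θ.r (.base α) (.base β)) (v w : Pt I) : θ.r v w := by
  have key : ∀ v : Pt I, θ.r v (.base 0) := by
    intro v
    cases v with
    | base α => exact hall α 0
    | arm t i κ =>
      have hx : θ.r (.base (t + 1)) (.arm t i .x) := by
        have := inv_tri1 hθ t i (hall (t + 1) (t + 2))
        rwa [tri1_of_one rfl, tri1_of_two rfl] at this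
      have hx0 : θ.r (.arm t i .x) (.base 0) := θ.trans' (θ.symm' hx) (hall _ _)
      cases κ with
      | x => exact hx0
      | y =>
        have := inv_tri2 hθ t i (hall (t + 1) (t + 2))
        rw [tri2_of_one rfl, tri2_of_two rfl] at this
        exact θ.trans' (θ.symm' this) hx0
      | m =>
        have := inv_tri2 hθ t i (hall (t + 1) t)
        rw [tri2_of_one rfl, tri2_of_zero rfl] at this
        exact θ.trans' (θ.symm' this) hx0
      | s =>
        have := inv_tri1 hθ t i (hall (t + 1) t)
        rw [tri1_of_one rfl, tri1_of_zero rfl] at this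
        exact θ.trans' (θ.symm' this) (hall _ _)
  exact θ.trans' (key v) (θ.symm' (key w))

/-- The points of the big class are identified with a base point. -/
theorem conn_big (hθ : IsInv (tripodOps F) θ) {u : Fin 3}
    (hb : θ.r (.base (u + 1)) (.base (u + 2))) {v : Pt I} (hv : BigPt u v) :
    θ.r v (.base (u + 1)) := by
  cases v with
  | base α =>
    rcases fin3_cases u α with rfl | rfl | rfl
    · exact absurd rfl hv
    · exact θ.refl' _
    · exact θ.symm' hb
  | arm t i κ =>
    have hv' : Big u t κ := hv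
    rcases hv' with ⟨rfl, hκ⟩ | ⟨rfl, rfl⟩
    · have hx : θ.r (.base (t + 1)) (.arm t i .x) := by
        have := inv_tri1 hθ t i hb
        rwa [tri1_of_one rfl, tri1_of_two rfl] at this
      rcases hκ with rfl | rfl
      · exact θ.symm' hx
      · have := inv_tri2 hθ t i hb
        rw [tri2_of_one rfl, tri2_of_two rfl] at this
        exact θ.trans' (θ.symm' this) (θ.symm' hx)
    · have := inv_tri1 hθ (u + 1) i hb
      rw [tri1_of_zero rfl, tri1_of_one (fin3_b u)] at this
      exact θ.trans' this (θ.symm' hb)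

/-- The two vertices of roles `u + 1` and `u + 2` of a triangle are identified. -/
theorem conn_tri (hθ : IsInv (tripodOps F) θ) {u : Fin 3}
    (hb : θ.r (.base (u + 1)) (.base (u + 2))) {t : Fin 3} (i : I t) {κ κ' : Kind}
    (h : TriPair u t κ κ') : θ.r (.arm t i κ) (.arm t i κ') := by
  rcases h with ⟨rfl, h⟩ | ⟨rfl, h⟩
  · have h1 := inv_tri1 hθ (u + 2) i hb
    rw [tri1_of_two (fin3_a u), tri1_of_zero rfl] at h1
    have h2 := inv_tri2 hθ (u + 2) i hb
    rw [tri2_of_two (fin3_a u), tri2_of_zero rfl] at h2
    rcases h with ⟨rfl, rfl⟩ | ⟨rfl, rfl⟩ | ⟨rfl, rfl⟩ | ⟨rfl, rfl⟩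
    · exact h1
    · exact θ.symm' h1
    · exact h2
    · exact θ.symm' h2
  · have h1 := inv_tri2 hθ (u + 1) i hb
    rw [tri2_of_zero rfl, tri2_of_one (fin3_b u)] at h1
    rcases h with ⟨rfl, rfl⟩ | ⟨rfl, rfl⟩
    · exact θ.symm' h1
    · exact h1

/-- Classification of the invariant equivalence relations of the tripod algebra. -/
theorem inv_classify (hθ : IsInv (tripodOps F) θ) :
    θ = ⊥ ∨ θ = ⊤ ∨ ∃ (u : Fin 3) (ψ : Setoid (I u)), IsInv (F u) ψ ∧ θ = hat u ψ := by
  by_cases h0 : ∀ v w, θ.r v w → v = w
  · left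
    ext v w
    rw [Setoid.bot_def]
    exact ⟨h0 v w, fun h => h ▸ θ.refl' v⟩
  · push Not at h0
    obtain ⟨v, w, hvw, hne⟩ := h0
    have hex : ∃ α β : Fin 3, α ≠ β ∧ θ.r (.base α) (.base β) := by
      by_contra hcon
      push Not at hcon
      apply hne
      apply separation
      · intro S
        by_contra hS
        exact hcon _ _ hS (inv_baseS hθ S hvw)
      · by_contra hC
        exact hcon _ _ hC (inv_baseC hθ hvw)
    obtain ⟨α, β, hαβ, hT⟩ := hex
    obtain ⟨u, hu⟩ := fin3_pair α β hαβ
    have hb : θ.r (.base (u + 1)) (.base (u + 2)) := by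
      rcases hu with ⟨rfl, rfl⟩ | ⟨rfl, rfl⟩
      · exact hT
      · exact θ.symm' hT
    by_cases hU : θ.r (.base u) (.base (u + 1))
    · right; left
      have h1 : ∀ α : Fin 3, θ.r (.base α) (.base (u + 1)) := by
        intro α
        rcases fin3_cases u α with rfl | rfl | rfl
        · exact hU
        · exact θ.refl' _
        · exact θ.symm' hb
      have hall : ∀ α β : Fin 3, θ.r (.base α) (.base β) :=
        fun α β => θ.trans' (h1 α) (θ.symm' (h1 β))
      ext v w
      rw [Setoid.top_def]
      exact ⟨fun _ => trivial, fun _ => top_of_base hθ hall v w⟩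
    · right; right
      have hU2 : ¬ θ.r (.base u) (.base (u + 2)) := fun h => hU (θ.trans' h (θ.symm' hb))
      have htr : ∀ a b : Fin 3, θ.r (.base a) (.base b) → (a = u ↔ b = u) := by
        intro a b hab
        constructor
        · rintro rfl
          rcases fin3_cases a b with rfl | rfl | rfl
          · rfl
          · exact absurd hab hU
          · exact absurd hab hU2
        · rintro rfl
          rcases fin3_cases b a with rfl | rfl | rfl
          · rfl
          · exact absurd (θ.symm' hab) hU
          · exact absurd (θ.symm' hab) hU2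
      have hprof : ∀ v w, θ.r v w → Prof u v w := fun v w h =>
        ⟨fun S => htr _ _ (inv_baseS hθ S h), htr _ _ (inv_baseC hθ h)⟩
      refine ⟨u, Setoid.comap (fun i => (.arm u i .m : Pt I)) θ, ?_, ?_⟩
      · intro f hf i j hij
        have hop : IsOp F (liftAll (Function.update (fun _ => id) u f)) := by
          refine IsOp.lift _ ?_
          intro t
          by_cases ht : t = u
          · subst ht
            left
            rw [Function.update_self]
            exact hf
          · right
            rw [Function.update_of_ne ht]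
        have := hθ _ hop _ _ hij
        show θ.r (Pt.arm u (f i) .m) (Pt.arm u (f j) .m)
        simpa [liftAll] using this
      · ext v w
        constructor
        · intro h
          refine ⟨hprof v w h, ?_⟩
          by_cases hM : IsM u v
          · obtain ⟨i, rfl⟩ := hM
            obtain ⟨j, rfl⟩ := (hprof _ _ h).of_m
            exact Or.inl ⟨i, j, rfl, rfl, h⟩
          · refine Or.inr ⟨hM, ?_⟩
            rintro ⟨j, rfl⟩
            obtain ⟨i, rfl⟩ := (hprof _ _ h).symm.of_m
            exact hM ⟨i, rfl⟩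
        · rintro ⟨hp, h2⟩
          rcases h2 with ⟨i, j, rfl, rfl, hij⟩ | ⟨h1, h2⟩
          · exact hij
          · have hc := hp.classify
            cases hc with
            | refl => exact θ.refl' _
            | big _ _ hv hw => exact θ.trans' (conn_big hθ hb hv) (θ.symm' (conn_big hθ hb hw))
            | mm i j => exact absurd ⟨i, rfl⟩ h1
            | tri t i κ κ' ht => exact conn_tri hθ hb i ht

end Invariant

/-! ### The order isomorphism -/

/-- The least invariant equivalence relation. -/
def botInv {A : Type} (G : Set (A → A)) : Inv G :=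
  ⟨⊥, fun g _ x y h => by
    rw [Setoid.bot_def] at h ⊢
    exact congrArg g h⟩

/-- The greatest invariant equivalence relation. -/
def topInv {A : Type} (G : Set (A → A)) : Inv G :=
  ⟨⊤, fun g _ x y _ => by
    rw [Setoid.top_def]
    trivial⟩

/-- `hat u ψ` as an invariant equivalence relation. -/
def hatInv (F : ∀ t, Set (I t → I t)) (u : Fin 3) (ψ : Inv (F u)) : Inv (tripodOps F) :=
  ⟨hat u ψ.1, hat_isInv F u ψ.1 ψ.2⟩

/-- The map from the parallel sum of the three lattices of invariant equivalence relations to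
the invariant equivalence relations of the tripod. -/
def tripodMap (F : ∀ t, Set (I t → I t)) :
    WithBot (WithTop (Inv (F 0) ⊕ Inv (F 1) ⊕ Inv (F 2))) → Inv (tripodOps F)
  | none => botInv _
  | some none => topInv _
  | some (some (Sum.inl ψ)) => hatInv F 0 ψ
  | some (some (Sum.inr (Sum.inl ψ))) => hatInv F 1 ψ
  | some (some (Sum.inr (Sum.inr ψ))) => hatInv F 2 ψ

theorem hatInv_le_iff (F : ∀ t, Set (I t → I t)) (u : Fin 3) (ψ ψ' : Inv (F u)) :
    hatInv F u ψ ≤ hatInv F u ψ' ↔ ψ ≤ ψ' :=
  hat_le_iff u ψ.1 ψ'.1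

theorem not_hatInv_le (F : ∀ t, Set (I t → I t)) {u u' : Fin 3} (h : u ≠ u')
    (ψ : Inv (F u)) (ψ' : Inv (F u')) : ¬ hatInv F u ψ ≤ hatInv F u' ψ' :=
  not_hat_le_of_ne h ψ.1 ψ'.1

theorem tripodMap_le_iff (F : ∀ t, Set (I t → I t))
    (a b : WithBot (WithTop (Inv (F 0) ⊕ Inv (F 1) ⊕ Inv (F 2)))) :
    tripodMap F a ≤ tripodMap F b ↔ a ≤ b := by
  induction a using WithBot.recBotCoe with
  | bot =>
    exact ⟨fun _ => bot_le, fun _ => (bot_le : (⊥ : Setoid (Pt I)) ≤ _)⟩
  | coe a =>
    induction b using WithBot.recBotCoe with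
    | bot =>
      refine ⟨fun h => ?_, fun h => absurd h (WithBot.not_coe_le_bot a)⟩
      exfalso
      induction a using WithTop.recTopCoe with
      | top => exact not_top_le_bot h
      | coe a =>
        rcases a with ψ | ψ | ψ
        · exact not_hat_le_bot 0 ψ.1 h
        · exact not_hat_le_bot 1 ψ.1 h
        · exact not_hat_le_bot 2 ψ.1 h
    | coe b =>
      rw [WithBot.coe_le_coe]
      induction b using WithTop.recTopCoe with
      | top =>
        exact ⟨fun _ => le_top, fun _ => (le_top : _ ≤ (⊤ : Setoid (Pt I)))⟩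
      | coe b =>
        induction a using WithTop.recTopCoe with
        | top =>
          refine ⟨fun h => ?_, fun h => absurd h (WithTop.not_top_le_coe b)⟩
          exfalso
          rcases b with ψ | ψ | ψ
          · exact not_top_le_hat 0 ψ.1 h
          · exact not_top_le_hat 1 ψ.1 h
          · exact not_top_le_hat 2 ψ.1 h
        | coe a =>
          rw [WithTop.coe_le_coe]
          rcases a with ψ | ψ | ψ <;> rcases b with ψ' | ψ' | ψ'
          · rw [Sum.inl_le_inl_iff]
            exact hatInv_le_iff F 0 ψ ψ'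
          · exact ⟨fun h => absurd h (not_hatInv_le F (by decide) ψ ψ'),
              fun h => absurd h Sum.not_inl_le_inr⟩
          · exact ⟨fun h => absurd h (not_hatInv_le F (by decide) ψ ψ'),
              fun h => absurd h Sum.not_inl_le_inr⟩
          · exact ⟨fun h => absurd h (not_hatInv_le F (by decide) ψ ψ'),
              fun h => absurd h Sum.not_inr_le_inl⟩
          · rw [Sum.inr_le_inr_iff, Sum.inl_le_inl_iff]
            exact hatInv_le_iff F 1 ψ ψ'
          · rw [Sum.inr_le_inr_iff]
            exact ⟨fun h => absurd h (not_hatInv_le F (by decide) ψ ψ'),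
              fun h => absurd h Sum.not_inl_le_inr⟩
          · exact ⟨fun h => absurd h (not_hatInv_le F (by decide) ψ ψ'),
              fun h => absurd h Sum.not_inr_le_inl⟩
          · rw [Sum.inr_le_inr_iff]
            exact ⟨fun h => absurd h (not_hatInv_le F (by decide) ψ ψ'),
              fun h => absurd h Sum.not_inr_le_inl⟩
          · rw [Sum.inr_le_inr_iff, Sum.inr_le_inr_iff]
            exact hatInv_le_iff F 2 ψ ψ'

theorem tripodMap_surjective (F : ∀ t, Set (I t → I t)) :
    Function.Surjective (tripodMap F) := by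
  rintro ⟨θ, hθ⟩
  rcases inv_classify hθ with rfl | rfl | ⟨u, ψ, hψ, rfl⟩
  · exact ⟨⊥, rfl⟩
  · exact ⟨((⊤ : WithTop (Inv (F 0) ⊕ Inv (F 1) ⊕ Inv (F 2))) : WithBot _), rfl⟩
  · match u, ψ, hψ, hθ with
    | 0, ψ, hψ, _ =>
      exact ⟨(((Sum.inl ⟨ψ, hψ⟩ : Inv (F 0) ⊕ Inv (F 1) ⊕ Inv (F 2)) : WithTop _) :
        WithBot _), rfl⟩
    | 1, ψ, hψ, _ =>
      exact ⟨(((Sum.inr (Sum.inl ⟨ψ, hψ⟩) : Inv (F 0) ⊕ Inv (F 1) ⊕ Inv (F 2)) : WithTop _) :
        WithBot _), rfl⟩
    | 2, ψ, hψ, _ =>
      exact ⟨(((Sum.inr (Sum.inr ⟨ψ, hψ⟩) : Inv (F 0) ⊕ Inv (F 1) ⊕ Inv (F 2)) : WithTop _) :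
        WithBot _), rfl⟩

/-- The lattice of invariant equivalence relations of the tripod algebra is the parallel sum
of the lattices of invariant equivalence relations of the three given unary algebras. -/
theorem tripod_orderIso (F : ∀ t, Set (I t → I t)) :
    Nonempty (WithBot (WithTop (Inv (F 0) ⊕ Inv (F 1) ⊕ Inv (F 2))) ≃o Inv (tripodOps F)) :=
  ⟨RelIso.ofSurjective (OrderEmbedding.ofMapLEIff (tripodMap F) (tripodMap_le_iff F))
    (tripodMap_surjective F)⟩

end Vale.Agent.Lib.P183
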