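import Vale.Agent.Lib.P183.FrameCon
import Vale.Agent.Lib.P183.TripodIso

/-!
# Classification of the invariant equivalence relations of the gadget algebra

Every invariant equivalence relation of the gadget algebra over a frame is the least one, the
greatest one, or `fHat u ψ` for a unique wing `u` and a unique invariant equivalence relation
`ψ` of `(I u, F u)`.  Hence the lattice of invariant equivalence relations is the parallel sum
of the lattices of invariant equivalence relations of the given unary algebras.
-/

namespace Vale.Agent.Lib.P183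

open Classical

variable {B T : Type} {fr : Frame B T} {I : T → Type} {F : ∀ t, Set (I t → I t)}

/-- The restriction of an equivalence relation on the gadget algebra to the frame. -/
def resB (θ : Setoid (FPt fr I)) : Setoid B := Setoid.comap FPt.base θ

section Invariant

variable {θ : Setoid (FPt fr I)}

theorem resB_isInv (hθ : IsInv (frameOps fr F) θ) : IsInv fr.ops (resB θ) := by
  intro g hg x y h
  exact hθ _ (IsFOp.baseOp g hg) _ _ h

theorem inv_fS (hθ : IsInv (frameOps fr F) θ) (S : ∀ t, I t → Prop) {v v' : FPt fr I}
    (h : θ.r v v') : (resB θ).r (fS S v) (fS S v') :=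
  hθ _ (IsFOp.retS S) _ _ h

theorem inv_fC (hθ : IsInv (frameOps fr F) θ) {v v' : FPt fr I}
    (h : θ.r v v') : (resB θ).r (fC v) (fC v') :=
  hθ _ IsFOp.retC _ _ h

theorem inv_par1 (hθ : IsInv (frameOps fr F) θ) (t : T) (i : I t) {b b' : B}
    (h : (resB θ).r b b') : θ.r (par1 t i b) (par1 t i b') :=
  hθ _ (IsFOp.fold1 t i) _ _ h

theorem inv_par2 (hθ : IsInv (frameOps fr F) θ) (t : T) (i : I t) {b b' : B}
    (h : (resB θ).r b b') : θ.r (par2 t i b) (par2 t i b') :=
  hθ _ (IsFOp.fold2 t i) _ _ h

/-- An invariant equivalence relation identifying no two frame points is the least one. -/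
theorem bot_of_resB (hθ : IsInv (frameOps fr F) θ) (h : resB θ = ⊥) : θ = ⊥ := by
  rw [eq_bot_iff]
  intro v v' hv
  rw [Setoid.bot_def]
  apply fSeparation
  · intro S
    have := inv_fS hθ S hv
    rw [h, Setoid.bot_def] at this
    exact this
  · have := inv_fC hθ hv
    rw [h, Setoid.bot_def] at this
    exact this

/-- An invariant equivalence relation identifying all frame points is the greatest one. -/
theorem top_of_resB (hθ : IsInv (frameOps fr F) θ) (h : resB θ = ⊤) : θ = ⊤ := by
  have hall : ∀ b b', (resB θ).r b b' := by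
    intro b b'
    rw [h, Setoid.top_def]
    trivial
  have key : ∀ v : FPt fr I, ∃ b, θ.r v (.base b) := by
    intro v
    cases v with
    | base b => exact ⟨b, θ.refl' _⟩
    | arm k t i b hb' =>
      cases k with
      | false =>
        refine ⟨fr.p t, ?_⟩
        have := inv_par1 hθ t i (hall b (fr.p t))
        rwa [par1_of_ne t i hb', par1_p] at this
      | true =>
        refine ⟨fr.p t, ?_⟩
        have h1 := inv_par2 hθ t i (hall b (fr.p t))
        rw [par2_of_ne t i hb', par2_p] at h1
        have h2 := inv_par1 hθ t i (hall (fr.q t) (fr.p t))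
        rw [par1_p] at h2
        exact θ.trans' h1 h2
  rw [eq_top_iff]
  intro v v' _
  obtain ⟨b, hb1⟩ := key v
  obtain ⟨b', hb2⟩ := key v'
  exact θ.trans' hb1 (θ.trans' (hall b b') (θ.symm' hb2))

/-! ### Invariant equivalence relations restricting to a wing -/

theorem conn_base {u : T} (hu : resB θ = fr.w u) {b b' : B} (h : fr.cl u b = fr.cl u b') :
    θ.r (.base b) (.base b') := by
  have : (resB θ).r b b' := by
    rw [hu]
    exact (fr.cl_eq u _ _).mp h
  exact this

theorem conn_par1 (hθ : IsInv (frameOps fr F) θ) {u : T} (hu : resB θ = fr.w u) (t : T)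
    (i : I t) {b b' : B} (h : fr.cl u b = fr.cl u b') : θ.r (par1 t i b) (par1 t i b') := by
  apply inv_par1 hθ t i
  rw [hu]
  exact (fr.cl_eq u _ _).mp h

theorem conn_par2 (hθ : IsInv (frameOps fr F) θ) {u : T} (hu : resB θ = fr.w u) (t : T)
    (i : I t) {b b' : B} (h : fr.cl u b = fr.cl u b') : θ.r (par2 t i b) (par2 t i b') := by
  apply inv_par2 hθ t i
  rw [hu]
  exact (fr.cl_eq u _ _).mp h

theorem prof_of_rel (hθ : IsInv (frameOps fr F) θ) {u : T} (hu : resB θ = fr.w u)
    {v v' : FPt fr I} (h : θ.r v v') : FProf u v v' := by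
  refine ⟨fun S => (fr.cl_eq u _ _).mpr ?_, (fr.cl_eq u _ _).mpr ?_⟩
  · have := inv_fS hθ S h
    rwa [hu] at this
  · have := inv_fC hθ h
    rwa [hu] at this

/-- A first-copy point whose label is in the class of the gluing point is identified with
the gluing point. -/
theorem link_false (hθ : IsInv (frameOps fr F) θ) {u : T} (hu : resB θ = fr.w u) {t : T}
    {i : I t} {b : B} {hb : b ≠ fr.p t} (h : fr.cl u b = fr.cl u (fr.p t)) :
    θ.r (.arm false t i b hb) (.base (fr.p t)) := by
  have := conn_par1 hθ hu t i h
  rwa [par1_of_ne t i hb, par1_p] at this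

/-- A second-copy point whose label is in the class of the gluing point is identified with
the gluing point, provided the two distinguished points of the wing are identified. -/
theorem link_true (hθ : IsInv (frameOps fr F) θ) {u : T} (hu : resB θ = fr.w u) {t : T}
    {i : I t} {b : B} {hb : b ≠ fr.p t} (h : fr.cl u b = fr.cl u (fr.p t))
    (hq : fr.cl u (fr.q t) = fr.cl u (fr.p t)) :
    θ.r (.arm true t i b hb) (.base (fr.p t)) := by
  have h1 := conn_par2 hθ hu t i h
  rw [par2_of_ne t i hb, par2_p] at h1
  have h2 := conn_par1 hθ hu t i hq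
  rw [par1_p] at h2
  exact θ.trans' h1 h2

theorem conn_base_arm (hθ : IsInv (frameOps fr F) θ) {u : T} (hu : resB θ = fr.w u)
    {b0 : B} {k : Bool} {t : T} {i : I t} {b : B} {hb : b ≠ fr.p t}
    (h : FProf u (.base b0 : FPt fr I) (.arm k t i b hb)) :
    θ.r (.base b0) (.arm k t i b hb) := by
  have hA := h.1 (sAll I)
  have hN := h.1 (sNone I)
  have hC := h.2
  rw [fS_base, fS_sAll_arm] at hA
  rw [fS_base, fS_sNone_arm] at hN
  rw [fC_base, fC_arm] at hC
  have s1 : θ.r (.base b0) (.base (fr.p t)) := conn_base hu hA
  cases k with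
  | false =>
    simp only [Bool.false_eq_true, if_false] at hN
    exact θ.trans' s1 (θ.symm' (link_false hθ hu (hN.symm.trans hA)))
  | true =>
    simp only [if_true] at hN hC
    exact θ.trans' s1 (θ.symm' (link_true hθ hu (hC.symm.trans hA) (hN.symm.trans hA)))

theorem conn_arm_arm (hθ : IsInv (frameOps fr F) θ) {u : T} (hu : resB θ = fr.w u)
    {k : Bool} {t : T} {i : I t} {b : B} {hb : b ≠ fr.p t}
    {k' : Bool} {t' : T} {j : I t'} {b' : B} {hb' : b' ≠ fr.p t'}
    (h : FProf u (.arm k t i b hb : FPt fr I) (.arm k' t' j b' hb')) :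
    θ.r (.arm k t i b hb) (.arm k' t' j b' hb') ∨
      ∃ (i0 j0 : I u) (c c' : B) (hc : c ≠ fr.p u) (hc' : c' ≠ fr.p u),
        (.arm k t i b hb : FPt fr I) = .arm true u i0 c hc ∧
        (.arm k' t' j b' hb' : FPt fr I) = .arm true u j0 c' hc' ∧
        fr.cl u (fr.p u) ≠ fr.cl u c := by
  have hA := h.1 (sAll I)
  have hN := h.1 (sNone I)
  have hO1 := h.1 (sOne t i)
  have hO2 := h.1 (sOne t' j)
  have hC := h.2
  rw [fS_sAll_arm, fS_sAll_arm] at hA
  rw [fS_sNone_arm, fS_sNone_arm] at hN
  rw [fS_sOne_arm_self, fS_sOne_arm] at hO1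
  rw [fS_sOne_arm_self, fS_sOne_arm] at hO2
  rw [fC_arm, fC_arm] at hC
  by_cases he : (⟨t', j⟩ : Σ t, I t) = ⟨t, i⟩
  · -- the two points lie on the copies of the same index
    rw [Sigma.mk.inj_iff] at he
    obtain ⟨e1, e2⟩ := he
    subst e1
    cases e2
    left
    cases k with
    | false =>
      cases k' with
      | false =>
        simp only [Bool.false_eq_true, if_false] at hN
        have := conn_par1 hθ hu t' j hN
        rwa [par1_of_ne t' j hb, par1_of_ne t' j hb'] at this
      | true =>
        simp only [Bool.false_eq_true, if_false, if_true] at hN hC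
        have s1 := conn_par1 hθ hu t' j hN
        rw [par1_of_ne t' j hb] at s1
        have s2 := conn_par2 hθ hu t' j hC
        rw [par2_p, par2_of_ne t' j hb'] at s2
        exact θ.trans' s1 s2
    | true =>
      cases k' with
      | false =>
        simp only [Bool.false_eq_true, if_false, if_true] at hN hC
        have s1 := conn_par2 hθ hu t' j hC
        rw [par2_of_ne t' j hb, par2_p] at s1
        have s2 := conn_par1 hθ hu t' j hN
        rw [par1_of_ne t' j hb'] at s2
        exact θ.trans' s1 s2
      | true =>
        simp only [if_true] at hC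
        have := conn_par2 hθ hu t' j hC
        rwa [par2_of_ne t' j hb, par2_of_ne t' j hb'] at this
  · -- the two points lie on copies of different indices
    have he' : ¬ ((⟨t, i⟩ : Σ t, I t) = ⟨t', j⟩) := fun e => he e.symm
    rw [if_neg he] at hO1
    rw [if_neg he'] at hO2
    have hX : fr.cl u (if k = true then fr.q t else b) = fr.cl u (fr.p t) := hN.trans hO1.symm
    have hX' : fr.cl u (if k' = true then fr.q t' else b') = fr.cl u (fr.p t') :=
      hN.symm.trans hO2
    have sB : θ.r (.base (fr.p t)) (.base (fr.p t')) := conn_base hu hA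
    cases k with
    | false =>
      simp only [Bool.false_eq_true, if_false] at hX hC
      have s1 := link_false (hb := hb) hθ hu (i := i) hX
      cases k' with
      | false =>
        simp only [Bool.false_eq_true, if_false] at hX'
        left
        exact θ.trans' s1 (θ.trans' sB (θ.symm' (link_false hθ hu hX')))
      | true =>
        simp only [if_true] at hX' hC
        left
        exact θ.trans' s1 (θ.trans' sB
          (θ.symm' (link_true hθ hu (hC.symm.trans hA) hX')))
    | true =>
      simp only [if_true] at hX hC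
      cases k' with
      | false =>
        simp only [Bool.false_eq_true, if_false] at hX' hC
        left
        exact θ.trans' (link_true hθ hu (hC.trans hA.symm) hX)
          (θ.trans' sB (θ.symm' (link_false hθ hu hX')))
      | true =>
        simp only [if_true] at hX' hC
        have e1 : u = t := fr.cl_ne hX.symm
        have e2 : u = t' := fr.cl_ne hX'.symm
        subst e1
        subst e2
        by_cases hfree : fr.cl u (fr.p u) = fr.cl u b
        · left
          exact θ.trans' (link_true hθ hu hfree.symm hX)
            (θ.symm' (link_true hθ hu (hC.symm.trans hfree.symm) hX'))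
        · right
          exact ⟨i, j, b, b', hb, hb', rfl, rfl, hfree⟩

/-- Two points with the same `u`-profile are identified, unless they are two free points of
second copies of the wing `u`. -/
theorem conn_or_free (hθ : IsInv (frameOps fr F) θ) {u : T} (hu : resB θ = fr.w u)
    {v v' : FPt fr I} (h : FProf u v v') :
    θ.r v v' ∨ ∃ (i j : I u) (b b' : B) (hb : b ≠ fr.p u) (hb' : b' ≠ fr.p u),
      v = .arm true u i b hb ∧ v' = .arm true u j b' hb' ∧
        fr.cl u (fr.p u) ≠ fr.cl u b := by
  cases v with
  | base b0 =>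
    cases v' with
    | base b1 =>
      left
      exact conn_base hu (by simpa using h.1 (sNone I))
    | arm k' t' j b' hb' =>
      left
      exact conn_base_arm hθ hu h
  | arm k t i b hb =>
    cases v' with
    | base b1 =>
      left
      exact θ.symm' (conn_base_arm hθ hu h.symm)
    | arm k' t' j b' hb' => exact conn_arm_arm hθ hu h

/-- The equivalence relation on `I u` induced on the second-copy points with label `r`. -/
def psiOf (θ : Setoid (FPt fr I)) (u : T) (r : B) (hr : r ≠ fr.p u) : Setoid (I u) :=
  Setoid.comap (fun i => (FPt.arm true u i r hr : FPt fr I)) θ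

theorem psiOf_isInv (hθ : IsInv (frameOps fr F) θ) (u : T) (r : B) (hr : r ≠ fr.p u) :
    IsInv (F u) (psiOf θ u r hr) := by
  intro f hf i j h
  have hf' : ∀ t, Function.update (fun t => (id : I t → I t)) u f t ∈ F t ∨
      Function.update (fun t => (id : I t → I t)) u f t = id := by
    intro t
    by_cases ht : t = u
    · subst ht
      left
      rw [Function.update_self]
      exact hf
    · right
      rw [Function.update_of_ne ht]
  have e : Function.update (fun t => (id : I t → I t)) u f u = f := Function.update_self ..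
  have key := hθ _ (IsFOp.lift _ hf') _ _ h
  simp only [fLift, e] at key
  exact key

/-- An invariant equivalence relation restricting to the wing `u` on the frame is of the form
`fHat u ψ`. -/
theorem eq_fHat (hθ : IsInv (frameOps fr F) θ) {u : T} (hu : resB θ = fr.w u) :
    ∃ ψ : Setoid (I u), IsInv (F u) ψ ∧ θ = fHat u ψ := by
  obtain ⟨r, hr⟩ := fr.hproper u
  have hr' : r ≠ fr.p u := by
    intro e
    apply hr
    rw [e]
  have twistInv : ∀ (g : B → B), (g ∈ fr.G u ∨ g = id) → ∀ (i j : I u) (c c' : B)
      (hc : c ≠ fr.p u) (hc' : c' ≠ fr.p u),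
      θ.r (.arm true u i c hc) (.arm true u j c' hc') →
      θ.r (par2 u i (g c)) (par2 u j (g c')) := by
    intro g hg i j c c' hc hc' hv
    have hg' : ∀ t, Function.update (fun _ => (id : B → B)) u g t ∈ fr.G t ∨
        Function.update (fun _ => (id : B → B)) u g t = id := by
      intro t
      by_cases ht : t = u
      · subst ht
        rw [Function.update_self]
        exact hg
      · right
        rw [Function.update_of_ne ht]
    have eg : Function.update (fun _ => (id : B → B)) u g u = g := Function.update_self ..
    have h1 := hθ _ (IsFOp.twist _ hg') _ _ hv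
    rw [fTwist_arm_true, fTwist_arm_true, eg] at h1
    exact h1
  refine ⟨psiOf θ u r hr', psiOf_isInv hθ u r hr', ?_⟩
  apply le_antisymm
  · intro v v' hv
    refine ⟨prof_of_rel hθ hu hv, ?_⟩
    intro i j b b' hb hb' e e' hfb
    subst e
    subst e'
    have hrf : ¬ (fr.w u).r (fr.p u) b := fun hh => hfb ((fr.cl_eq u _ _).mpr hh)
    obtain ⟨g, hg, hgb⟩ := fr.htrans u b r hrf hr
    have h1 := twistInv g hg i j b b' hb hb' hv
    have hl : fr.cl u b = fr.cl u b' := (prof_of_rel hθ hu hv).label
    have c1 : fr.cl u (g b) = fr.cl u r := (fr.cl_eq u _ _).mpr hgb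
    have c2 : fr.cl u (g b') = fr.cl u r := (fr.twist_cl hg u hl).symm.trans c1
    have h2 := conn_par2 hθ hu u i c1
    have h3 := conn_par2 hθ hu u j c2
    rw [par2_of_ne u i hr'] at h2
    rw [par2_of_ne u j hr'] at h3
    exact θ.trans' (θ.symm' h2) (θ.trans' h1 h3)
  · intro v v' hv
    rcases conn_or_free hθ hu hv.1 with h | ⟨i, j, b, b', hb, hb', rfl, rfl, hfb⟩
    · exact h
    · have hψ : θ.r (.arm true u i r hr') (.arm true u j r hr') :=
        hv.2 i j b b' hb hb' rfl rfl hfb
      have hbf : ¬ (fr.w u).r (fr.p u) b := fun hh => hfb ((fr.cl_eq u _ _).mpr hh)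
      obtain ⟨g, hg, hgr⟩ := fr.htrans u r b hr hbf
      have h1 := twistInv g hg i j r r hr' hr' hψ
      have hl : fr.cl u b = fr.cl u b' := hv.1.label
      have c1 : fr.cl u (g r) = fr.cl u b := (fr.cl_eq u _ _).mpr hgr
      have c2 : fr.cl u (g r) = fr.cl u b' := c1.trans hl
      have h2 := conn_par2 hθ hu u i c1
      have h3 := conn_par2 hθ hu u j c2
      rw [par2_of_ne u i hb] at h2
      rw [par2_of_ne u j hb'] at h3
      exact θ.trans' (θ.symm' h2) (θ.trans' h1 h3)

/-- Classification of the invariant equivalence relations of the gadget algebra. -/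
theorem finv_classify (hθ : IsInv (frameOps fr F) θ) :
    θ = ⊥ ∨ θ = ⊤ ∨ ∃ (u : T) (ψ : Setoid (I u)), IsInv (F u) ψ ∧ θ = fHat u ψ := by
  rcases fr.hcon (resB θ) (resB_isInv hθ) with h | h | ⟨u, h⟩
  · exact Or.inl (bot_of_resB hθ h)
  · exact Or.inr (Or.inl (top_of_resB hθ h))
  · exact Or.inr (Or.inr ⟨u, eq_fHat hθ h⟩)

end Invariant

/-! ### The order isomorphism -/

/-- `fHat u ψ` as an invariant equivalence relation. -/
def fHatInv (fr : Frame B T) (F : ∀ t, Set (I t → I t)) (u : T) (ψ : Inv (F u)) :
    Inv (frameOps fr F) :=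
  ⟨fHat u ψ.1, fHat_isInv F u ψ.1 ψ.2⟩

/-- The map from the parallel sum of the lattices of invariant equivalence relations of the
given unary algebras to the invariant equivalence relations of the gadget algebra. -/
def frameMap (fr : Frame B T) (F : ∀ t, Set (I t → I t)) :
    WithBot (WithTop (Σ t, Inv (F t))) → Inv (frameOps fr F)
  | none => botInv _
  | some none => topInv _
  | some (some ⟨u, ψ⟩) => fHatInv fr F u ψ

theorem frameMap_le_iff [Nonempty T] (fr : Frame B T) (F : ∀ t, Set (I t → I t))
    (a b : WithBot (WithTop (Σ t, Inv (F t)))) :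
    frameMap fr F a ≤ frameMap fr F b ↔ a ≤ b := by
  induction a using WithBot.recBotCoe with
  | bot =>
    exact ⟨fun _ => bot_le, fun _ => (bot_le : (⊥ : Setoid (FPt fr I)) ≤ _)⟩
  | coe a =>
    induction b using WithBot.recBotCoe with
    | bot =>
      refine ⟨fun h => ?_, fun h => absurd h (WithBot.not_coe_le_bot a)⟩
      exfalso
      induction a using WithTop.recTopCoe with
      | top => exact not_top_le_bot_frame h
      | coe a =>
        obtain ⟨u, ψ⟩ := a
        exact not_fHat_le_bot u ψ.1 h
    | coe b =>
      rw [WithBot.coe_le_coe]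
      induction b using WithTop.recTopCoe with
      | top =>
        exact ⟨fun _ => le_top, fun _ => (le_top : _ ≤ (⊤ : Setoid (FPt fr I)))⟩
      | coe b =>
        induction a using WithTop.recTopCoe with
        | top =>
          refine ⟨fun h => ?_, fun h => absurd h (WithTop.not_top_le_coe b)⟩
          exfalso
          obtain ⟨u, ψ⟩ := b
          exact not_top_le_fHat u ψ.1 h
        | coe a =>
          rw [WithTop.coe_le_coe]
          obtain ⟨u, ψ⟩ := a
          obtain ⟨u', ψ'⟩ := b
          by_cases hne : u = u'
          · subst hne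
            rw [Sigma.mk_le_mk_iff]
            exact fHat_le_iff u ψ.1 ψ'.1
          · refine ⟨fun h => absurd h (not_fHat_le_of_ne hne ψ.1 ψ'.1), fun h => ?_⟩
            exfalso
            rw [Sigma.le_def] at h
            obtain ⟨h1, -⟩ := h
            exact hne h1

theorem frameMap_surjective (fr : Frame B T) (F : ∀ t, Set (I t → I t)) :
    Function.Surjective (frameMap fr F) := by
  rintro ⟨θ, hθ⟩
  rcases finv_classify hθ with rfl | rfl | ⟨u, ψ, hψ, rfl⟩
  · exact ⟨⊥, rfl⟩
  · exact ⟨((⊤ : WithTop (Σ t, Inv (F t))) : WithBot _), rfl⟩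
  · exact ⟨(((⟨u, ⟨ψ, hψ⟩⟩ : Σ t, Inv (F t)) : WithTop _) : WithBot _), rfl⟩

/-- The lattice of invariant equivalence relations of the gadget algebra over a frame is the
parallel sum of the lattices of invariant equivalence relations of the given unary
algebras. -/
theorem frame_orderIso [Nonempty T] (fr : Frame B T) (F : ∀ t, Set (I t → I t)) :
    Nonempty (WithBot (WithTop (Σ t, Inv (F t))) ≃o Inv (frameOps fr F)) :=
  ⟨RelIso.ofSurjective (OrderEmbedding.ofMapLEIff (frameMap fr F) (frameMap_le_iff fr F))
    (frameMap_surjective fr F)⟩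

end Vale.Agent.Lib.P183
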