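import Vale.Agent.Lib.P183.Frame

/-!
# Profiles of points of the gadget algebra

Two points have the same `u`-profile if every retraction onto the frame sends them to points
in the same class of the wing `w u`.  Profiles are preserved by the basic operations, and the
retractions separate points.
-/

namespace Vale.Agent.Lib.P183

open Classical

variable {B T : Type} {fr : Frame B T} {I : T → Type}

/-- The family of subsets consisting of all indices. -/
def sAll (I : T → Type) : ∀ t, I t → Prop := fun _ _ => True

/-- The empty family of subsets. -/
def sNone (I : T → Type) : ∀ t, I t → Prop := fun _ _ => False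

/-- The family of subsets consisting of the single index `(t, i)`. -/
def sOne (t : T) (i : I t) : ∀ t', I t' → Prop := fun t' j => (⟨t', j⟩ : Σ t, I t) = ⟨t, i⟩

theorem fS_sAll_arm (k : Bool) (t : T) (i : I t) (b : B) (hb : b ≠ fr.p t) :
    fS (sAll I) (.arm k t i b hb : FPt fr I) = fr.p t := by
  simp [fS_arm, sAll]

theorem fS_sNone_arm (k : Bool) (t : T) (i : I t) (b : B) (hb : b ≠ fr.p t) :
    fS (sNone I) (.arm k t i b hb : FPt fr I) = if k = true then fr.q t else b := by
  simp [fS_arm, sNone]

theorem fS_sOne_arm_self (k : Bool) (t : T) (i : I t) (b : B) (hb : b ≠ fr.p t) :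
    fS (sOne t i) (.arm k t i b hb : FPt fr I) = fr.p t := by
  simp [fS_arm, sOne]

theorem fS_sOne_arm (t : T) (i : I t) (k' : Bool) (t' : T) (j : I t') (b' : B)
    (hb' : b' ≠ fr.p t') :
    fS (sOne t i) (.arm k' t' j b' hb' : FPt fr I)
      = if (⟨t', j⟩ : Σ t, I t) = ⟨t, i⟩ then fr.p t'
        else (if k' = true then fr.q t' else b') := by
  simp [fS_arm, sOne]

/-- Two points have the same `u`-profile. -/
def FProf (u : T) (v v' : FPt fr I) : Prop :=
  (∀ S : ∀ t, I t → Prop, fr.cl u (fS S v) = fr.cl u (fS S v')) ∧
    fr.cl u (fC v) = fr.cl u (fC v')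

theorem FProf.refl (u : T) (v : FPt fr I) : FProf u v v := ⟨fun _ => rfl, rfl⟩

theorem FProf.symm {u : T} {v v' : FPt fr I} (h : FProf u v v') : FProf u v' v :=
  ⟨fun S => (h.1 S).symm, h.2.symm⟩

theorem FProf.trans {u : T} {v v' v'' : FPt fr I} (h : FProf u v v') (h' : FProf u v' v'') :
    FProf u v v'' :=
  ⟨fun S => (h.1 S).trans (h'.1 S), h.2.trans h'.2⟩

/-- Second copies of different wings never have the same profile. -/
theorem FProf.same_wing {u : T} {t t' : T} {i : I t} {j : I t'} {b b' : B}
    {hb : b ≠ fr.p t} {hb' : b' ≠ fr.p t'}
    (h : FProf u (.arm true t i b hb : FPt fr I) (.arm true t' j b' hb')) (hne : t ≠ t') :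
    False := by
  have h1 := h.1 (sAll I)
  have h2 := h.1 (sNone I)
  have h3 := h.1 (sOne t i)
  rw [fS_sAll_arm, fS_sAll_arm] at h1
  rw [fS_sNone_arm, fS_sNone_arm] at h2
  rw [fS_sOne_arm_self, fS_sOne_arm] at h3
  have hne' : ¬ ((⟨t', j⟩ : Σ t, I t) = ⟨t, i⟩) := by
    intro e
    exact hne (congrArg Sigma.fst e).symm
  simp only [if_neg hne', if_true] at h2 h3
  have e1 : u = t := fr.cl_ne (h3.trans h2.symm)
  have e2 : u = t' := fr.cl_ne (h1.symm.trans h3)
  exact hne (e1.symm.trans e2)

/-- The second retraction of a twisted point. -/
theorem fC_fTwist_arm_true (g : T → B → B) (t : T) (i : I t) (b : B) (hb : b ≠ fr.p t) :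
    fC (fTwist g (.arm true t i b hb : FPt fr I)) = g t b := by
  simp [fTwist, fC_par2]

theorem fTwist_arm_false (g : T → B → B) (t : T) (i : I t) (b : B) (hb : b ≠ fr.p t) :
    fTwist g (.arm false t i b hb : FPt fr I) = .arm false t i b hb := by
  simp [fTwist]

theorem fTwist_arm_true (g : T → B → B) (t : T) (i : I t) (b : B) (hb : b ≠ fr.p t) :
    fTwist g (.arm true t i b hb : FPt fr I) = par2 t i (g t b) := by
  simp [fTwist]

theorem fTwist_base (g : T → B → B) (b : B) : fTwist g (.base b : FPt fr I) = .base b := rfl

/-- The second retraction is compatible with twists on pairs with the same profile. -/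
theorem FProf.twist {u : T} {v v' : FPt fr I} (h : FProf u v v') {g : T → B → B}
    (hg : ∀ t, g t ∈ fr.G t ∨ g t = id) :
    fr.cl u (fC (fTwist g v)) = fr.cl u (fC (fTwist g v')) := by
  cases v with
  | base b0 =>
    cases v' with
    | base b1 => exact h.2
    | arm k' t' j b' hb' =>
      cases k' with
      | false => rw [fTwist_arm_false]; exact h.2
      | true =>
        rw [fC_fTwist_arm_true, fTwist_base, fC_base]
        have h1 := h.1 (sAll I)
        have h2 := h.2
        rw [fS_sAll_arm, fS_base] at h1
        rw [fC_arm, fC_base] at h2
        simp only [if_true] at h2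
        have h3 : fr.cl u b' = fr.cl u (fr.p t') := h2.symm.trans h1
        have h4 := fr.twist_cl (hg t') u h3
        rw [fr.twist_p (hg t')] at h4
        exact h1.trans h4.symm
  | arm k t i b hb =>
    cases v' with
    | base b1 =>
      cases k with
      | false => rw [fTwist_arm_false]; exact h.2
      | true =>
        rw [fC_fTwist_arm_true, fTwist_base, fC_base]
        have h1 := h.1 (sAll I)
        have h2 := h.2
        rw [fS_sAll_arm, fS_base] at h1
        rw [fC_arm, fC_base] at h2
        simp only [if_true] at h2
        have h3 : fr.cl u b = fr.cl u (fr.p t) := h2.trans h1.symm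
        have h4 := fr.twist_cl (hg t) u h3
        rw [fr.twist_p (hg t)] at h4
        exact h4.trans h1
    | arm k' t' j b' hb' =>
      have h1 := h.1 (sAll I)
      have h2 := h.2
      rw [fS_sAll_arm, fS_sAll_arm] at h1
      rw [fC_arm, fC_arm] at h2
      cases k with
      | false =>
        cases k' with
        | false => rw [fTwist_arm_false, fTwist_arm_false]; exact h.2
        | true =>
          rw [fTwist_arm_false, fC_fTwist_arm_true, fC_arm]
          simp only [Bool.false_eq_true, if_false, if_true] at h2 ⊢
          have h3 : fr.cl u b' = fr.cl u (fr.p t') := h2.symm.trans h1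
          have h4 := fr.twist_cl (hg t') u h3
          rw [fr.twist_p (hg t')] at h4
          exact h1.trans h4.symm
      | true =>
        cases k' with
        | false =>
          rw [fTwist_arm_false, fC_fTwist_arm_true, fC_arm]
          simp only [Bool.false_eq_true, if_false, if_true] at h2 ⊢
          have h3 : fr.cl u b = fr.cl u (fr.p t) := h2.trans h1.symm
          have h4 := fr.twist_cl (hg t) u h3
          rw [fr.twist_p (hg t)] at h4
          exact h4.trans h1
        | true =>
          rw [fC_fTwist_arm_true, fC_fTwist_arm_true]
          simp only [if_true] at h2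
          by_cases hne : t = t'
          · subst hne
            exact fr.twist_cl (hg t) u h2
          · exact (h.same_wing hne).elim

/-- Profiles are preserved by the basic operations. -/
theorem FProf.map {F : ∀ t, Set (I t → I t)} {u : T} {v v' : FPt fr I} (h : FProf u v v')
    {g : FPt fr I → FPt fr I} (hg : IsFOp fr F g) : FProf u (g v) (g v') := by
  cases hg with
  | lift f hf =>
    refine ⟨fun S => ?_, ?_⟩
    · rw [fS_fLift, fS_fLift]
      exact h.1 _
    · rw [fC_fLift, fC_fLift]
      exact h.2
  | twist g hg =>
    refine ⟨fun S => ?_, ?_⟩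
    · rw [fS_fTwist, fS_fTwist]
      exact h.1 S
    · exact h.twist hg
  | retS S' =>
    refine ⟨fun S => ?_, ?_⟩
    · simpa using h.1 S'
    · simpa using h.1 S'
  | retC =>
    refine ⟨fun S => ?_, ?_⟩
    · simpa using h.2
    · simpa using h.2
  | baseOp g hg =>
    have key : fr.cl u (g (fS (fun _ _ => False) v)) = fr.cl u (g (fS (fun _ _ => False) v')) :=
      (fr.cl_eq u _ _).mpr (fr.hinv u g hg _ _ ((fr.cl_eq u _ _).mp (h.1 _)))
    refine ⟨fun S => ?_, ?_⟩
    · simpa using key
    · simpa using key
  | fold1 t i =>
    refine ⟨fun S => ?_, ?_⟩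
    · rw [fS_par1, fS_par1]
      split_ifs
      · rfl
      · exact h.1 _
    · rw [fC_par1, fC_par1]
  | fold2 t i =>
    refine ⟨fun S => ?_, ?_⟩
    · rw [fS_par2, fS_par2]
    · rw [fC_par2, fC_par2]
      exact h.1 _

/-- The retractions onto the frame separate the points. -/
theorem fSeparation (v v' : FPt fr I) (hS : ∀ S, fS S v = fS S v') (hC : fC v = fC v') :
    v = v' := by
  cases v with
  | base b0 =>
    cases v' with
    | base b1 =>
      have := hS (sNone I)
      simp only [fS_base] at this
      rw [this]
    | arm k' t' j b' hb' =>
      exfalso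
      have h1 := hS (sAll I)
      have h2 := hS (sNone I)
      rw [fS_sAll_arm, fS_base] at h1
      rw [fS_sNone_arm, fS_base] at h2
      cases k' with
      | false =>
        simp only [Bool.false_eq_true, if_false] at h2
        exact hb' (h2.symm.trans h1)
      | true =>
        simp only [if_true] at h2
        exact fr.hpq t' (h2.symm.trans h1)
  | arm k t i b hb =>
    cases v' with
    | base b1 =>
      exfalso
      have h1 := hS (sAll I)
      have h2 := hS (sNone I)
      rw [fS_sAll_arm, fS_base] at h1
      rw [fS_sNone_arm, fS_base] at h2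
      cases k with
      | false =>
        simp only [Bool.false_eq_true, if_false] at h2
        exact hb (h2.trans h1.symm)
      | true =>
        simp only [if_true] at h2
        exact fr.hpq t (h2.trans h1.symm)
    | arm k' t' j b' hb' =>
      have h1 := hS (sAll I)
      have h2 := hS (sNone I)
      have h3 := hS (sOne t i)
      rw [fS_sAll_arm, fS_sAll_arm] at h1
      rw [fS_sNone_arm, fS_sNone_arm] at h2
      rw [fS_sOne_arm_self, fS_sOne_arm] at h3
      rw [fC_arm, fC_arm] at hC
      by_cases he : (⟨t', j⟩ : Σ t, I t) = ⟨t, i⟩
      · rw [Sigma.mk.inj_iff] at he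
        obtain ⟨e1, e2⟩ := he
        subst e1
        cases e2
        cases k with
        | false =>
          cases k' with
          | false =>
            simp only [Bool.false_eq_true, if_false] at h2
            subst h2
            rfl
          | true =>
            simp only [Bool.false_eq_true, if_false, if_true] at hC
            exact (hb' hC.symm).elim
        | true =>
          cases k' with
          | false =>
            simp only [Bool.false_eq_true, if_false, if_true] at hC
            exact (hb hC).elim
          | true =>
            simp only [if_true] at hC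
            subst hC
            rfl
      · exfalso
        rw [if_neg he] at h3
        cases k' with
        | false =>
          simp only [Bool.false_eq_true, if_false] at h3
          exact hb' (h3.symm.trans h1)
        | true =>
          simp only [if_true] at h3
          exact fr.hpq t' (h3.symm.trans h1)

/-- A point with the same `u`-profile as a free point of a second copy of the wing `u` is a
point of a second copy of the wing `u`, with a `w u`-related label. -/
theorem FProf.of_free {u : T} {i : I u} {b : B} {hb : b ≠ fr.p u} {v' : FPt fr I}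
    (h : FProf u (.arm true u i b hb : FPt fr I) v') (hfree : fr.cl u (fr.p u) ≠ fr.cl u b) :
    ∃ (j : I u) (b' : B) (hb' : b' ≠ fr.p u), v' = .arm true u j b' hb' ∧
      fr.cl u b = fr.cl u b' := by
  cases v' with
  | base b0 =>
    exfalso
    have h1 := h.1 (sAll I)
    have h2 := h.2
    rw [fS_sAll_arm, fS_base] at h1
    rw [fC_arm, fC_base] at h2
    simp only [if_true] at h2
    exact hfree (h1.trans h2.symm)
  | arm k' t' j b' hb' =>
    have h1 := h.1 (sAll I)
    have h2 := h.2
    rw [fS_sAll_arm, fS_sAll_arm] at h1
    rw [fC_arm, fC_arm] at h2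
    cases k' with
    | false =>
      exfalso
      simp only [Bool.false_eq_true, if_false, if_true] at h2
      exact hfree (h1.trans h2.symm)
    | true =>
      simp only [if_true] at h2
      by_cases hne : u = t'
      · subst hne
        exact ⟨j, b', hb', rfl, h2⟩
      · exact (h.same_wing hne).elim

end Vale.Agent.Lib.P183
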