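import Vale.Agent.Lib.P183.FieldParallelSum
import Vale.Agent.Lib.P183.GroupInterval

/-!
# Parallel sums of intervals in subgroup lattices of finite groups
-/

namespace Vale.Agent.Lib.P183

open Classical

/-- Every interval `[H, G]` in the subgroup lattice of a finite group `G` is representable. -/
theorem representable_Ici {G : Type*} [Group G] [Finite G] (H : Subgroup G) :
    Representable (Set.Ici H) := by
  have φ : Shrink.{0} G ≃* G := Shrink.mulEquiv
  have : Finite (Shrink.{0} G) := Finite.of_equiv G (equivShrink.{0} G)
  have h := representable_Ici_zero (φ.comapSubgroup H)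
  exact h.of_orderIso (φ.comapSubgroup.Ici H).symm

/-- For every prime power `q`, the parallel sum of `q + 1` intervals in subgroup lattices of
finite groups is representable. -/
theorem representable_groupIntervals (q : ℕ) (hq : IsPrimePow q) (G : Fin (q + 1) → Type*)
    [∀ i, Group (G i)] [∀ i, Finite (G i)] (H : ∀ i, Subgroup (G i)) :
    Representable (WithBot (WithTop (Σ i, Set.Ici (H i)))) :=
  representable_primePow q hq (fun i => Set.Ici (H i)) (fun i => representable_Ici (H i))

end Vale.Agent.Lib.P183
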