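import Vale.Agent.Lib.P183.Unary

/-!
# The tripod algebra

Given three unary algebras `(I t, F t)`, `t : Fin 3`, we build a unary algebra on the set
`Pt I` consisting of three base points and, for every `t` and every `i : I t`, four points
`x, y, m, s`.  This file contains the points, the retractions onto the base and the basic
operations.
-/

namespace Vale.Agent.Lib.P183

open Classical

/-- The four kinds of points on an arm of the tripod. -/
inductive Kind : Type
  | x | y | m | s
  deriving DecidableEq

instance : Fintype Kind :=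
  ⟨{Kind.x, Kind.y, Kind.m, Kind.s}, by intro k; cases k <;> simp⟩

/-- Offset of the image of an arm point under a subset retraction (outside the subset). -/
def eOff : Kind → Fin 3
  | .x => 2
  | .y => 2
  | .m => 2
  | .s => 0

/-- Offset of the image of an arm point under the second retraction. -/
def cOff : Kind → Fin 3
  | .x => 1
  | .y => 2
  | .m => 0
  | .s => 1

/-- The points of the tripod: three base points, and for each arm `t` and index `i : I t`
four points, one of each kind. -/
inductive Pt (I : Fin 3 → Type) : Type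
  | base (α : Fin 3) : Pt I
  | arm (t : Fin 3) (i : I t) (κ : Kind) : Pt I

variable {I : Fin 3 → Type}

/-- The retraction onto the base determined by a family of subsets `S t ⊆ I t`. -/
noncomputable def rhoS (S : ∀ t, I t → Prop) : Pt I → Fin 3
  | .base α => α
  | .arm t i κ => if S t i then t + 1 else t + eOff κ

/-- The second retraction onto the base. -/
def rhoC : Pt I → Fin 3
  | .base α => α
  | .arm t _ κ => t + cOff κ

/-- The first triangle of arm `t` at index `i`, as a map from roles to points. -/
noncomputable def tri1 (t : Fin 3) (i : I t) (α : Fin 3) : Pt I :=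
  if α = t + 1 then .base (t + 1) else if α = t + 2 then .arm t i .x else .arm t i .s

/-- The second triangle of arm `t` at index `i`, as a map from roles to points. -/
noncomputable def tri2 (t : Fin 3) (i : I t) (α : Fin 3) : Pt I :=
  if α = t + 1 then .arm t i .x else if α = t + 2 then .arm t i .y else .arm t i .m

/-- The action of a family of unary maps on the indices of the arms. -/
def liftAll (f : ∀ t, I t → I t) : Pt I → Pt I
  | .base α => .base α
  | .arm t i κ => .arm t (f t i) κ

/-- The basic operations of the tripod algebra over unary algebras `(I t, F t)`. -/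
inductive IsOp (F : ∀ t, Set (I t → I t)) : (Pt I → Pt I) → Prop
  | lift (f : ∀ t, I t → I t) (hf : ∀ t, f t ∈ F t ∨ f t = id) : IsOp F (liftAll f)
  | retS (S : ∀ t, I t → Prop) : IsOp F (fun v => .base (rhoS S v))
  | retC : IsOp F (fun v => .base (rhoC v))
  | fold1 (t : Fin 3) (i : I t) : IsOp F (fun v => tri1 t i (rhoS (fun _ _ => False) v))
  | fold2 (t : Fin 3) (i : I t) : IsOp F (fun v => tri2 t i (rhoS (fun _ _ => False) v))

/-- The set of basic operations of the tripod algebra. -/
def tripodOps (F : ∀ t, Set (I t → I t)) : Set (Pt I → Pt I) := {g | IsOp F g}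

/-! ### Finiteness -/

/-- An injective encoding of the points. -/
def Pt.enc : Pt I → Fin 3 ⊕ (Σ t, I t) × Kind
  | .base α => .inl α
  | .arm t i κ => .inr (⟨t, i⟩, κ)

theorem Pt.enc_injective : Function.Injective (Pt.enc (I := I)) := by
  intro v w h
  cases v with
  | base α =>
    cases w with
    | base β => simp only [Pt.enc, Sum.inl.injEq] at h; rw [h]
    | arm t j κ => simp [Pt.enc] at h
  | arm t i κ =>
    cases w with
    | base β => simp [Pt.enc] at h
    | arm t' j κ' =>
      simp only [Pt.enc, Sum.inr.injEq, Prod.mk.injEq] at h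
      obtain ⟨h1, h2⟩ := h
      cases h1
      rw [h2]

instance [∀ t, Finite (I t)] : Finite (Pt I) :=
  Finite.of_injective Pt.enc Pt.enc_injective

instance : Nonempty (Pt I) := ⟨.base 0⟩

/-! ### Simp lemmas for the retractions -/

@[simp] theorem rhoS_base (S : ∀ t, I t → Prop) (α : Fin 3) : rhoS S (.base α : Pt I) = α := rfl

theorem rhoS_arm (S : ∀ t, I t → Prop) (t : Fin 3) (i : I t) (κ : Kind) :
    rhoS S (.arm t i κ : Pt I) = if S t i then t + 1 else t + eOff κ := rfl

theorem rhoS_arm_pos (S : ∀ t, I t → Prop) (t : Fin 3) (i : I t) (κ : Kind) (h : S t i) :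
    rhoS S (.arm t i κ : Pt I) = t + 1 := by rw [rhoS_arm, if_pos h]

theorem rhoS_arm_neg (S : ∀ t, I t → Prop) (t : Fin 3) (i : I t) (κ : Kind) (h : ¬ S t i) :
    rhoS S (.arm t i κ : Pt I) = t + eOff κ := by rw [rhoS_arm, if_neg h]

@[simp] theorem rhoC_base (α : Fin 3) : rhoC (.base α : Pt I) = α := rfl

@[simp] theorem rhoC_arm (t : Fin 3) (i : I t) (κ : Kind) :
    rhoC (.arm t i κ : Pt I) = t + cOff κ := rfl

theorem rhoS_liftAll (S : ∀ t, I t → Prop) (f : ∀ t, I t → I t) (v : Pt I) :
    rhoS S (liftAll f v) = rhoS (fun t i => S t (f t i)) v := by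
  cases v <;> rfl

theorem rhoC_liftAll (f : ∀ t, I t → I t) (v : Pt I) : rhoC (liftAll f v) = rhoC v := by
  cases v <;> rfl

/-! ### Arithmetic in `Fin 3` -/

theorem fin3_third : ∀ α t : Fin 3, α ≠ t + 1 → α ≠ t + 2 → α = t := by decide

theorem fin3_cases : ∀ u β : Fin 3, β = u ∨ β = u + 1 ∨ β = u + 2 := by decide

theorem rhoS_tri1 (S : ∀ t, I t → Prop) (t : Fin 3) (i : I t) (α : Fin 3) :
    rhoS S (tri1 t i α) = if S t i then t + 1 else α := by
  unfold tri1
  by_cases h1 : α = t + 1
  · subst h1
    simp
  · by_cases h2 : α = t + 2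
    · subst h2
      simp only [if_neg h1, if_true, rhoS_arm]
      split_ifs <;> rfl
    · have h3 := fin3_third α t h1 h2
      subst h3
      simp only [if_neg h1, if_neg h2, rhoS_arm]
      split_ifs
      · rfl
      · simp [eOff]

theorem rhoC_tri1 (t : Fin 3) (i : I t) (α : Fin 3) : rhoC (tri1 t i α) = t + 1 := by
  unfold tri1
  split_ifs <;> simp [cOff]

theorem rhoS_tri2 (S : ∀ t, I t → Prop) (t : Fin 3) (i : I t) (α : Fin 3) :
    rhoS S (tri2 t i α) = if S t i then t + 1 else t + 2 := by
  unfold tri2
  split_ifs <;> simp [rhoS_arm, eOff, *]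

theorem rhoC_tri2 (t : Fin 3) (i : I t) (α : Fin 3) : rhoC (tri2 t i α) = α := by
  unfold tri2
  by_cases h1 : α = t + 1
  · subst h1
    simp [cOff]
  · by_cases h2 : α = t + 2
    · subst h2
      simp [cOff, h1]
    · have h3 := fin3_third α t h1 h2
      subst h3
      simp [cOff, h1, h2]

end Vale.Agent.Lib.P183
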