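import Vale.Agent.Lib.P183.TripodProfile

/-!
# The invariant equivalence relations of the tripod algebra

We determine all equivalence relations on the tripod that are invariant under the basic
operations: the least one, the greatest one, and for each arm `u` one relation `hat u ψ`
for every invariant equivalence relation `ψ` of the unary algebra `(I u, F u)`.
-/

namespace Vale.Agent.Lib.P183

open Classical

variable {I : Fin 3 → Type}

/-! ### More arithmetic in `Fin 3` -/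

theorem fin3_ne1 : ∀ u : Fin 3, u ≠ u + 1 := by decide

theorem fin3_ne2 : ∀ u : Fin 3, u ≠ u + 2 := by decide

theorem fin3_ne12 : ∀ u : Fin 3, u + 1 ≠ u + 2 := by decide

theorem fin3_a : ∀ u : Fin 3, u + 1 = u + 2 + 2 := by decide

theorem fin3_b : ∀ u : Fin 3, u + 2 = u + 1 + 1 := by decide

theorem fin3_pair : ∀ α β : Fin 3, α ≠ β →
    ∃ u, (α = u + 1 ∧ β = u + 2) ∨ (α = u + 2 ∧ β = u + 1) := by decide

theorem fin3_off : ∀ u u' : Fin 3, u ≠ u' → ¬ (u + 1 = u' ↔ u + 2 = u') := by decide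

/-! ### Values of the triangle maps -/

theorem tri1_of_one {t : Fin 3} {i : I t} {α : Fin 3} (h : α = t + 1) :
    tri1 t i α = .base α := by
  subst h
  simp [tri1]

theorem tri1_of_two {t : Fin 3} {i : I t} {α : Fin 3} (h : α = t + 2) :
    tri1 t i α = .arm t i .x := by
  subst h
  simp [tri1, (fin3_ne12 t).symm]

theorem tri1_of_zero {t : Fin 3} {i : I t} {α : Fin 3} (h : α = t) :
    tri1 t i α = .arm t i .s := by
  subst h
  simp [tri1, fin3_ne1 α, fin3_ne2 α]

theorem tri2_of_one {t : Fin 3} {i : I t} {α : Fin 3} (h : α = t + 1) :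
    tri2 t i α = .arm t i .x := by
  subst h
  simp [tri2]

theorem tri2_of_two {t : Fin 3} {i : I t} {α : Fin 3} (h : α = t + 2) :
    tri2 t i α = .arm t i .y := by
  subst h
  simp [tri2, (fin3_ne12 t).symm]

theorem tri2_of_zero {t : Fin 3} {i : I t} {α : Fin 3} (h : α = t) :
    tri2 t i α = .arm t i .m := by
  subst h
  simp [tri2, fin3_ne1 α, fin3_ne2 α]

/-! ### The relations `hat u ψ` -/

/-- `v` is an `m`-point of arm `u`. -/
def IsM (u : Fin 3) (v : Pt I) : Prop := ∃ i : I u, v = .arm u i .m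

/-- The relation underlying `hat u ψ`: same `u`-profile, and two `m`-points of arm `u` are
related only if their indices are `ψ`-related. -/
def HatRel (u : Fin 3) (ψ : Setoid (I u)) (v w : Pt I) : Prop :=
  Prof u v w ∧
    ((∃ i j, v = .arm u i .m ∧ w = .arm u j .m ∧ ψ.r i j) ∨ (¬ IsM u v ∧ ¬ IsM u w))

theorem arm_m_inj {u : Fin 3} {i j : I u} (h : (Pt.arm u i .m : Pt I) = .arm u j .m) :
    i = j := by
  cases h
  rfl

theorem hatRel_snd_refl (u : Fin 3) (ψ : Setoid (I u)) (v : Pt I) :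
    (∃ i j, v = .arm u i .m ∧ v = .arm u j .m ∧ ψ.r i j) ∨ (¬ IsM u v ∧ ¬ IsM u v) := by
  by_cases h : IsM u v
  · obtain ⟨i, rfl⟩ := h
    exact Or.inl ⟨i, i, rfl, rfl, ψ.refl' i⟩
  · exact Or.inr ⟨h, h⟩

/-- The equivalence relation `hat u ψ` on the tripod. -/
def hat (u : Fin 3) (ψ : Setoid (I u)) : Setoid (Pt I) where
  r := HatRel u ψ
  iseqv :=
    { refl := fun v => ⟨Prof.refl u v, hatRel_snd_refl u ψ v⟩
      symm := by
        intro v w h
        refine ⟨h.1.symm, ?_⟩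
        rcases h.2 with ⟨i, j, rfl, rfl, hij⟩ | ⟨h1, h2⟩
        · exact Or.inl ⟨j, i, rfl, rfl, ψ.symm' hij⟩
        · exact Or.inr ⟨h2, h1⟩
      trans := by
        intro v w z h h'
        refine ⟨h.1.trans h'.1, ?_⟩
        rcases h.2 with ⟨i, j, rfl, rfl, hij⟩ | ⟨h1, h2⟩
        · rcases h'.2 with ⟨j', k, hj, rfl, hjk⟩ | ⟨h3, h4⟩
          · have := arm_m_inj hj
            subst this
            exact Or.inl ⟨i, k, rfl, rfl, ψ.trans' hij hjk⟩
          · exact absurd ⟨j, rfl⟩ h3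
        · rcases h'.2 with ⟨j', k, rfl, rfl, hjk⟩ | ⟨h3, h4⟩
          · exact absurd ⟨j', rfl⟩ h2
          · exact Or.inr ⟨h1, h4⟩ }

theorem hat_r (u : Fin 3) (ψ : Setoid (I u)) (v w : Pt I) :
    (hat u ψ).r v w ↔ HatRel u ψ v w := Iff.rfl

theorem liftAll_isM {u : Fin 3} (f : ∀ t, I t → I t) {v : Pt I} (h : IsM u (liftAll f v)) :
    IsM u v := by
  obtain ⟨i, hi⟩ := h
  cases v with
  | base α => simp [liftAll] at hi
  | arm t k κ =>
    simp only [liftAll, Pt.arm.injEq] at hi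
    obtain ⟨rfl, _, rfl⟩ := hi
    exact ⟨k, rfl⟩

theorem base_not_isM (u : Fin 3) (α : Fin 3) : ¬ IsM u (.base α : Pt I) := by
  rintro ⟨i, hi⟩
  cases hi

theorem tri1_not_isM (u t : Fin 3) (i : I t) (α : Fin 3) : ¬ IsM u (tri1 t i α) := by
  rintro ⟨j, hj⟩
  unfold tri1 at hj
  split_ifs at hj <;> cases hj

theorem tri2_isM {u t : Fin 3} {i : I t} {α : Fin 3} (h : IsM u (tri2 t i α)) : α = u := by
  obtain ⟨j, hj⟩ := h
  unfold tri2 at hj
  split_ifs at hj with h1 h2
  · cases hj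
  · cases hj
  · cases hj
    exact fin3_third α _ h1 h2

/-- The relation `hat u ψ` is invariant under the basic operations of the tripod. -/
theorem hat_isInv (F : ∀ t, Set (I t → I t)) (u : Fin 3) (ψ : Setoid (I u))
    (hψ : IsInv (F u) ψ) : IsInv (tripodOps F) (hat u ψ) := by
  intro g hg v w hvw
  have hg' : IsOp F g := hg
  refine ⟨hvw.1.map hg', ?_⟩
  cases hg' with
  | lift f hf =>
    rcases hvw.2 with ⟨i, j, rfl, rfl, hij⟩ | ⟨h1, h2⟩
    · refine Or.inl ⟨f u i, f u j, rfl, rfl, ?_⟩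
      rcases hf u with h | h
      · exact hψ _ h i j hij
      · rw [h]
        exact hij
    · exact Or.inr ⟨fun h => h1 (liftAll_isM f h), fun h => h2 (liftAll_isM f h)⟩
  | retS S => exact Or.inr ⟨base_not_isM u _, base_not_isM u _⟩
  | retC => exact Or.inr ⟨base_not_isM u _, base_not_isM u _⟩
  | fold1 t i => exact Or.inr ⟨tri1_not_isM u t i _, tri1_not_isM u t i _⟩
  | fold2 t i =>
    have hiff := hvw.1.1 (fun _ _ => False)
    beta_reduce
    by_cases hαβ : rhoS (fun _ _ => False) v = rhoS (fun _ _ => False) w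
    · rw [hαβ]
      exact hatRel_snd_refl u ψ _
    · refine Or.inr ⟨fun h => ?_, fun h => ?_⟩
      · have h1 := tri2_isM h
        exact hαβ (h1.trans (hiff.mp h1).symm)
      · have h1 := tri2_isM h
        exact hαβ ((hiff.mpr h1).trans h1.symm)

theorem prof_mm (u : Fin 3) (i j : I u) :
    Prof u (.arm u i .m : Pt I) (.arm u j .m) := by
  refine ⟨fun S => ?_, ?_⟩
  · rw [rhoS_arm, rhoS_arm]
    have h1 := (fin3_ne1 u).symm
    have h2 := (fin3_ne2 u).symm
    constructor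
    · intro h
      split_ifs at h
      · exact absurd h h1
      · exact absurd h h2
    · intro h
      split_ifs at h
      · exact absurd h h1
      · exact absurd h h2
  · simp [cOff]

theorem hat_m_iff (u : Fin 3) (ψ : Setoid (I u)) (i j : I u) :
    (hat u ψ).r (.arm u i .m) (.arm u j .m) ↔ ψ.r i j := by
  constructor
  · intro h
    rcases h.2 with ⟨i', j', hi, hj, hij⟩ | ⟨h1, _⟩
    · rw [arm_m_inj hi, arm_m_inj hj]
      exact hij
    · exact absurd ⟨i, rfl⟩ h1
  · intro h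
    exact ⟨prof_mm u i j, Or.inl ⟨i, j, rfl, rfl, h⟩⟩

theorem hat_base (u : Fin 3) (ψ : Setoid (I u)) :
    (hat u ψ).r (.base (u + 1)) (.base (u + 2)) := by
  refine ⟨⟨fun S => ?_, ?_⟩, Or.inr ⟨base_not_isM u _, base_not_isM u _⟩⟩
  · simp only [rhoS_base]
    exact ⟨fun h => absurd h.symm (fin3_ne1 u), fun h => absurd h.symm (fin3_ne2 u)⟩
  · simp only [rhoC_base]
    exact ⟨fun h => absurd h.symm (fin3_ne1 u), fun h => absurd h.symm (fin3_ne2 u)⟩

theorem not_hat_base (u : Fin 3) (ψ : Setoid (I u)) :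
    ¬ (hat u ψ).r (.base u) (.base (u + 1)) := by
  intro h
  have h1 : (u = u ↔ u + 1 = u) := h.1.1 (fun _ _ => True)
  exact fin3_ne1 u (h1.mp rfl).symm

theorem hat_le_iff (u : Fin 3) (ψ ψ' : Setoid (I u)) : hat u ψ ≤ hat u ψ' ↔ ψ ≤ ψ' := by
  constructor
  · intro h i j hij
    exact (hat_m_iff u ψ' i j).mp (h ((hat_m_iff u ψ i j).mpr hij))
  · intro h v w hvw
    refine ⟨hvw.1, ?_⟩
    rcases hvw.2 with ⟨i, j, rfl, rfl, hij⟩ | h2
    · exact Or.inl ⟨i, j, rfl, rfl, h hij⟩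
    · exact Or.inr h2

theorem not_hat_le_of_ne {u u' : Fin 3} (hne : u ≠ u') (ψ : Setoid (I u))
    (ψ' : Setoid (I u')) : ¬ hat u ψ ≤ hat u' ψ' := by
  intro h
  have h1 := (h (hat_base u ψ)).1.1 (fun _ _ => True)
  simp only [rhoS_base] at h1
  exact fin3_off u u' hne h1

theorem not_hat_le_bot (u : Fin 3) (ψ : Setoid (I u)) : ¬ hat u ψ ≤ ⊥ := by
  intro h
  have h1 := h (hat_base u ψ)
  rw [Setoid.bot_def] at h1
  exact fin3_ne12 u (Pt.base.inj h1)

theorem not_top_le_hat (u : Fin 3) (ψ : Setoid (I u)) : ¬ (⊤ : Setoid (Pt I)) ≤ hat u ψ := by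
  intro h
  exact not_hat_base u ψ (h (by rw [Setoid.top_def]; trivial))

theorem not_top_le_bot : ¬ (⊤ : Setoid (Pt I)) ≤ ⊥ := by
  intro h
  have h1 : (⊥ : Setoid (Pt I)).r (.base 0) (.base 1) := h (by rw [Setoid.top_def]; trivial)
  rw [Setoid.bot_def] at h1
  exact absurd (Pt.base.inj h1) (by decide)

end Vale.Agent.Lib.P183
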