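import Vale.Agent.Lib.P183.Tripod

/-!
# Profiles of points of the tripod

Two points have the same `u`-profile if every retraction onto the base sends both or neither
of them to the base point `u`.  We show that this relation is preserved by the basic
operations, that the retractions separate points, and we classify the pairs of points with
the same profile.
-/

namespace Vale.Agent.Lib.P183

open Classical

variable {I : Fin 3 → Type}

/-- Two points have the same `u`-profile. -/
def Prof (u : Fin 3) (v w : Pt I) : Prop :=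
  (∀ S : ∀ t, I t → Prop, rhoS S v = u ↔ rhoS S w = u) ∧ (rhoC v = u ↔ rhoC w = u)

theorem Prof.refl (u : Fin 3) (v : Pt I) : Prof u v v := ⟨fun _ => Iff.rfl, Iff.rfl⟩

theorem Prof.symm {u : Fin 3} {v w : Pt I} (h : Prof u v w) : Prof u w v :=
  ⟨fun S => (h.1 S).symm, h.2.symm⟩

theorem Prof.trans {u : Fin 3} {v w z : Pt I} (h : Prof u v w) (h' : Prof u w z) :
    Prof u v z :=
  ⟨fun S => (h.1 S).trans (h'.1 S), h.2.trans h'.2⟩

/-- Profiles are preserved by the basic operations. -/
theorem Prof.map {F : ∀ t, Set (I t → I t)} {u : Fin 3} {v w : Pt I} (h : Prof u v w)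
    {g : Pt I → Pt I} (hg : IsOp F g) : Prof u (g v) (g w) := by
  cases hg with
  | lift f hf =>
    refine ⟨fun S => ?_, ?_⟩
    · rw [rhoS_liftAll, rhoS_liftAll]
      exact h.1 _
    · rw [rhoC_liftAll, rhoC_liftAll]
      exact h.2
  | retS S' =>
    refine ⟨fun S => ?_, ?_⟩
    · simpa using h.1 S'
    · simpa using h.1 S'
  | retC =>
    refine ⟨fun S => ?_, ?_⟩
    · simpa using h.2
    · simpa using h.2
  | fold1 t i =>
    refine ⟨fun S => ?_, ?_⟩
    · rw [rhoS_tri1, rhoS_tri1]
      split_ifs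
      · rfl
      · exact h.1 _
    · rw [rhoC_tri1, rhoC_tri1]
  | fold2 t i =>
    refine ⟨fun S => ?_, ?_⟩
    · rw [rhoS_tri2, rhoS_tri2]
    · rw [rhoC_tri2, rhoC_tri2]
      exact h.1 _

/-! ### Separation -/

theorem sep_core1 : ∀ (t : Fin 3) (κ : Kind), t + 1 ≠ t + eOff κ := by decide

theorem sep_core2 : ∀ (t : Fin 3) (κ κ' : Kind),
    t + eOff κ = t + eOff κ' → t + cOff κ = t + cOff κ' → κ = κ' := by decide

theorem sep_core3 : ∀ (t t' : Fin 3) (κ' : Kind),
    t + 1 = t' + 1 → t + 1 = t' + eOff κ' → False := by decide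

/-- The retractions onto the base separate the points of the tripod. -/
theorem separation (v w : Pt I) (hS : ∀ S, rhoS S v = rhoS S w) (hC : rhoC v = rhoC w) :
    v = w := by
  cases v with
  | base α =>
    cases w with
    | base β =>
      have h1 := hS (fun _ _ => True)
      simp only [rhoS_base] at h1
      rw [h1]
    | arm t j κ =>
      have h1 := hS (fun _ _ => True)
      have h2 := hS (fun _ _ => False)
      rw [rhoS_base, rhoS_arm_pos _ _ _ _ trivial] at h1
      rw [rhoS_base, rhoS_arm_neg _ _ _ _ not_false] at h2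
      exact absurd (h1.symm.trans h2) (sep_core1 t κ)
  | arm t i κ =>
    cases w with
    | base β =>
      have h1 := hS (fun _ _ => True)
      have h2 := hS (fun _ _ => False)
      rw [rhoS_base, rhoS_arm_pos _ _ _ _ trivial] at h1
      rw [rhoS_base, rhoS_arm_neg _ _ _ _ not_false] at h2
      exact absurd (h1.trans h2.symm) (sep_core1 t κ)
    | arm t' j κ' =>
      by_cases h : (⟨t, i⟩ : Σ t, I t) = ⟨t', j⟩
      · cases h
        have h2 := hS (fun _ _ => False)
        rw [rhoS_arm_neg _ _ _ _ not_false, rhoS_arm_neg _ _ _ _ not_false] at h2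
        simp only [rhoC_arm] at hC
        rw [sep_core2 t κ κ' h2 hC]
      · exfalso
        have h1 := hS (fun _ _ => True)
        have h3 := hS (fun t'' k => (⟨t'', k⟩ : Σ t, I t) = ⟨t, i⟩)
        rw [rhoS_arm_pos _ _ _ _ trivial, rhoS_arm_pos _ _ _ _ trivial] at h1
        rw [rhoS_arm_pos _ _ _ _ rfl, rhoS_arm_neg _ _ _ _ (fun e => h e.symm)] at h3
        exact sep_core3 t t' κ' h1 h3

/-! ### Classification of pairs with equal profiles -/

/-- The arm points lying in the big class of the `u`-th equivalence. -/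
abbrev Big (u t : Fin 3) (κ : Kind) : Prop :=
  (t = u ∧ (κ = .x ∨ κ = .y)) ∨ (t = u + 1 ∧ κ = .s)

/-- The pairs of kinds on an arm `t` which are the two vertices of roles `u + 1`, `u + 2`
of a common triangle. -/
abbrev TriPair (u t : Fin 3) (κ κ' : Kind) : Prop :=
  (t = u + 2 ∧ ((κ = .x ∧ κ' = .s) ∨ (κ = .s ∧ κ' = .x) ∨ (κ = .y ∧ κ' = .m) ∨
    (κ = .m ∧ κ' = .y))) ∨
  (t = u + 1 ∧ ((κ = .x ∧ κ' = .m) ∨ (κ = .m ∧ κ' = .x)))

theorem coreA : ∀ (t t' u : Fin 3) (κ κ' : Kind),
    (t + 1 = u ↔ t' + 1 = u) → (t + eOff κ = u ↔ t' + eOff κ' = u) →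
    (t + 1 = u ↔ t' + eOff κ' = u) → (t + eOff κ = u ↔ t' + 1 = u) →
    (t + cOff κ = u ↔ t' + cOff κ' = u) →
    (Big u t κ ∧ Big u t' κ') ∨ (t = u ∧ κ = .m ∧ t' = u ∧ κ' = .m) := by decide

theorem coreB : ∀ (t u : Fin 3) (κ κ' : Kind),
    (t + eOff κ = u ↔ t + eOff κ' = u) → (t + cOff κ = u ↔ t + cOff κ' = u) →
    κ = κ' ∨ (Big u t κ ∧ Big u t κ') ∨ TriPair u t κ κ' := by decide

theorem coreC : ∀ (t u α : Fin 3) (κ : Kind),
    (α = u ↔ t + 1 = u) → (α = u ↔ t + eOff κ = u) → (α = u ↔ t + cOff κ = u) →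
    α ≠ u ∧ Big u t κ := by decide

/-- The points lying in the big class of the `u`-th equivalence. -/
def BigPt (u : Fin 3) : Pt I → Prop
  | .base α => α ≠ u
  | .arm t _ κ => Big u t κ

/-- The explicit description of the pairs of points with the same `u`-profile. -/
inductive ProfClass (u : Fin 3) : Pt I → Pt I → Prop
  | refl (v : Pt I) : ProfClass u v v
  | big (v w : Pt I) (hv : BigPt u v) (hw : BigPt u w) : ProfClass u v w
  | mm (i j : I u) : ProfClass u (.arm u i .m) (.arm u j .m)
  | tri (t : Fin 3) (i : I t) (κ κ' : Kind) (h : TriPair u t κ κ') :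
      ProfClass u (.arm t i κ) (.arm t i κ')

theorem Prof.classify {u : Fin 3} {v w : Pt I} (h : Prof u v w) : ProfClass u v w := by
  obtain ⟨hS, hC⟩ := h
  cases v with
  | base α =>
    cases w with
    | base β =>
      have h1 := hS (fun _ _ => True)
      simp only [rhoS_base] at h1
      by_cases hαβ : α = β
      · subst hαβ
        exact .refl _
      · refine .big _ _ ?_ ?_
        · intro hα
          exact hαβ (hα.trans (h1.mp hα).symm)
        · intro hβ
          exact hαβ ((h1.mpr hβ).trans hβ.symm)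
    | arm t j κ =>
      have h1 := hS (fun _ _ => True)
      have h2 := hS (fun _ _ => False)
      rw [rhoS_base, rhoS_arm_pos _ _ _ _ trivial] at h1
      rw [rhoS_base, rhoS_arm_neg _ _ _ _ not_false] at h2
      simp only [rhoC_base, rhoC_arm] at hC
      obtain ⟨ha, hb⟩ := coreC t u α κ h1 h2 hC
      exact .big _ _ ha hb
  | arm t i κ =>
    cases w with
    | base β =>
      have h1 := hS (fun _ _ => True)
      have h2 := hS (fun _ _ => False)
      rw [rhoS_base, rhoS_arm_pos _ _ _ _ trivial] at h1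
      rw [rhoS_base, rhoS_arm_neg _ _ _ _ not_false] at h2
      simp only [rhoC_base, rhoC_arm] at hC
      obtain ⟨ha, hb⟩ := coreC t u β κ h1.symm h2.symm hC.symm
      exact .big _ _ hb ha
    | arm t' j κ' =>
      by_cases h : (⟨t, i⟩ : Σ t, I t) = ⟨t', j⟩
      · cases h
        have h2 := hS (fun _ _ => False)
        rw [rhoS_arm_neg _ _ _ _ not_false, rhoS_arm_neg _ _ _ _ not_false] at h2
        simp only [rhoC_arm] at hC
        rcases coreB t u κ κ' h2 hC with h | h | h
        · subst h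
          exact .refl _
        · exact .big _ _ h.1 h.2
        · exact .tri t i κ κ' h
      · have h1 := hS (fun _ _ => True)
        have h2 := hS (fun _ _ => False)
        have h3 := hS (fun t'' k => (⟨t'', k⟩ : Σ t, I t) = ⟨t, i⟩)
        have h4 := hS (fun t'' k => (⟨t'', k⟩ : Σ t, I t) ≠ ⟨t, i⟩)
        rw [rhoS_arm_pos _ _ _ _ trivial, rhoS_arm_pos _ _ _ _ trivial] at h1
        rw [rhoS_arm_neg _ _ _ _ not_false, rhoS_arm_neg _ _ _ _ not_false] at h2
        rw [rhoS_arm_pos _ _ _ _ rfl, rhoS_arm_neg _ _ _ _ (fun e => h e.symm)] at h3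
        rw [rhoS_arm_neg _ _ _ _ (fun e => e rfl),
          rhoS_arm_pos _ _ _ _ (fun e => h e.symm)] at h4
        simp only [rhoC_arm] at hC
        rcases coreA t t' u κ κ' h1 h2 h3 h4 hC with h | ⟨rfl, rfl, rfl, rfl⟩
        · exact .big _ _ h.1 h.2
        · exact .mm i j

theorem not_big_m : ∀ u : Fin 3, ¬ Big u u .m := by decide

theorem not_tri_m : ∀ (u : Fin 3) (κ' : Kind), ¬ TriPair u u .m κ' := by decide

/-- A point with the same `u`-profile as an `m`-point of arm `u` is an `m`-point of arm `u`. -/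
theorem Prof.of_m {u : Fin 3} {i : I u} {w : Pt I} (h : Prof u (.arm u i .m) w) :
    ∃ j, w = .arm u j .m := by
  have hc := h.classify
  generalize hv : (Pt.arm u i Kind.m : Pt I) = v at hc
  cases hc with
  | refl => exact ⟨i, hv.symm⟩
  | big _ _ hv' hw =>
    subst hv
    exact absurd hv' (not_big_m u)
  | mm i' j => exact ⟨j, rfl⟩
  | tri t i' κ κ' ht =>
    cases hv
    exact absurd ht (not_tri_m u κ')

end Vale.Agent.Lib.P183
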