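import Vale.Agent.Lib.P183.Defs

/-!
# Reduction to unary algebras

Congruences of a finite algebra are the equivalence relations invariant under its basic
translations; conversely a set of unary maps on a finite set is a finite algebra.
-/

namespace Vale.Agent.Lib.P183

open Classical

/-- An equivalence relation is invariant under a set of unary maps. -/
def IsInv {A : Type} (G : Set (A → A)) (θ : Setoid A) : Prop :=
  ∀ g ∈ G, ∀ x y, θ.r x y → θ.r (g x) (g y)

/-- The invariant equivalence relations of a set of unary maps. -/
abbrev Inv {A : Type} (G : Set (A → A)) : Type := {θ : Setoid A // IsInv G θ}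

/-- The basic translations of a finite algebra. -/
def transl (A : FinAlgebra) : Set (A.carrier → A.carrier) :=
  {g | ∃ o ∈ A.ops, ∃ (k : Fin o.1) (a : Fin o.1 → A.carrier),
    g = fun x => o.2 (Function.update a k x)}

theorem isCongruence_iff_transl (A : FinAlgebra) (θ : Setoid A.carrier) :
    A.IsCongruence θ ↔ IsInv (transl A) θ := by
  constructor
  · rintro h g ⟨o, ho, k, a, rfl⟩ x y hxy
    apply h o ho
    intro j
    by_cases hj : j = k
    · subst hj
      simp [hxy]
    · simp only [Function.update_of_ne hj]
      exact θ.refl' _
  · intro h o ho a b hab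
    have key : ∀ s : Finset (Fin o.1),
        θ.r (o.2 a) (o.2 (fun j => if j ∈ s then b j else a j)) := by
      intro s
      induction s using Finset.induction_on with
      | empty => simp
      | insert k s hk ih =>
        refine θ.trans' ih ?_
        have h1 : (fun j => if j ∈ s then b j else a j)
            = Function.update (fun j => if j ∈ s then b j else a j) k (a k) := by
          funext j
          by_cases hj : j = k
          · subst hj; simp [hk]
          · simp [Function.update_of_ne hj]
        have h2 : (fun j => if j ∈ insert k s then b j else a j)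
            = Function.update (fun j => if j ∈ s then b j else a j) k (b k) := by
          funext j
          by_cases hj : j = k
          · subst hj; simp
          · simp [hj]
        rw [h1, h2]
        exact h _ ⟨o, ho, k, _, rfl⟩ (a k) (b k) (hab k)
    have := key Finset.univ
    simpa using this

/-- The list of the unary maps in `G`, as operations of arity one. -/
noncomputable def unaryOps (A : Type) [Finite A] (G : Set (A → A)) :
    List (Σ n : ℕ, (Fin n → A) → A) :=
  (Set.Finite.toFinset (Set.toFinite G)).toList.map (fun g => ⟨1, fun a => g (a 0)⟩)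

theorem mem_unaryOps (A : Type) [Finite A] (G : Set (A → A))
    (o : Σ n : ℕ, (Fin n → A) → A) :
    o ∈ unaryOps A G ↔ ∃ g ∈ G, (⟨1, fun a => g (a 0)⟩ : Σ n : ℕ, (Fin n → A) → A) = o := by
  simp [unaryOps]

/-- A finite set with a set of unary maps, as a finite algebra. -/
noncomputable def ofUnary (A : Type) [hf : Finite A] [hn : Nonempty A] (G : Set (A → A)) :
    FinAlgebra where
  carrier := A
  finite := hf
  nonempty := hn
  ops := unaryOps A G

theorem ofUnary_isCongruence_iff (A : Type) [Finite A] [Nonempty A] (G : Set (A → A))
    (θ : Setoid A) : (ofUnary A G).IsCongruence θ ↔ IsInv G θ := by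
  constructor
  · intro h g hg x y hxy
    have hmem : (⟨1, fun a => g (a 0)⟩ : Σ n : ℕ, (Fin n → A) → A) ∈ unaryOps A G :=
      (mem_unaryOps A G _).mpr ⟨g, hg, rfl⟩
    exact h _ hmem (fun _ => x) (fun _ => y) (fun _ => hxy)
  · intro h o ho a b hab
    obtain ⟨g, hg, rfl⟩ := (mem_unaryOps A G o).mp ho
    exact h g hg _ _ (hab 0)

/-- Order isomorphism between subtypes of a preorder cut out by equivalent predicates. -/
def subtypeIso {α : Type*} [LE α] {p q : α → Prop} (h : ∀ x, p x ↔ q x) :
    {x // p x} ≃o {x // q x} where
  toEquiv := Equiv.subtypeEquivRight h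
  map_rel_iff' := Iff.rfl

/-- Representability in terms of unary algebras. -/
theorem representable_iff_unary (L : Type*) [PartialOrder L] :
    Representable L ↔ ∃ (A : Type) (_ : Finite A) (_ : Nonempty A) (G : Set (A → A)),
      Nonempty (L ≃o Inv G) := by
  constructor
  · rintro ⟨A, ⟨e⟩⟩
    exact ⟨A.carrier, A.finite, A.nonempty, transl A,
      ⟨e.trans (subtypeIso (isCongruence_iff_transl A))⟩⟩
  · rintro ⟨A, hfin, hne, G, ⟨e⟩⟩
    exact ⟨ofUnary A G, ⟨e.trans (subtypeIso (fun θ => (ofUnary_isCongruence_iff A G θ).symm))⟩⟩

end Vale.Agent.Lib.P183
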